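import Vale.Agent.P358.Scal

/-
PLAN. Put E c = binEntropy ((1 + √(1 - c^2)) / 2) on [0,1] (Wootters function).
With r = √(1 - c^2), A r = (log (1+r) - log (1-r)) / 2 one has on (0,1):
E' c = c * A r / r ≥ 0 and E'' c = (A r - r) / r^3 ≥ 0
(Real.hasDerivAt_binEntropy, dr/dc = -c/r, c^2 = 1 - r^2, and A r ≥ r from
Real.le_log_one_add_of_nonneg with x = 2r/(1-r)).  So E is convex and monotone on [0,1]
(convexOn_of_hasDerivWithinAt2_nonneg, monotoneOn_of_hasDerivWithinAt_nonneg).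
Next (1 - 2t)^2 + 4(1-γ)q(1-q) = 1 - C q ^ 2 with C q = √(4γ(1-γ)(q-ν)^2 + 4γν(1-ν)) (ring under
the root), C q ∈ [0,1] for q ∈ [0,1], and C is convex (norm of an affine map; or direct
Cauchy-Schwarz).  fmin = E ∘ C on [0,1].
-/

namespace Vale.Agent.P358

namespace Conv

/-- the Wootters function -/
noncomputable def E (c : ℝ) : ℝ := Real.binEntropy ((1 + √(1 - c ^ 2)) / 2)

noncomputable def A (r : ℝ) : ℝ := (Real.log (1 + r) - Real.log (1 - r)) / 2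

theorem le_A {r : ℝ} (h0 : 0 ≤ r) (h1 : r < 1) : r ≤ A r := by
  have h2 : 0 < 1 - r := by linarith
  have h := Real.le_log_one_add_of_nonneg (x := 2 * r / (1 - r)) (by positivity)
  have e1 : 1 + 2 * r / (1 - r) = (1 + r) / (1 - r) := by field_simp; ring
  have e2 : 2 * (2 * r / (1 - r)) / (2 * r / (1 - r) + 2) = 2 * r := by field_simp; ring
  rw [e1, e2, Real.log_div (by linarith) h2.ne'] at h
  unfold A
  linarith

theorem hasDerivAt_A {r : ℝ} (h0 : 0 ≤ r) (h1 : r < 1) : HasDerivAt A (1 / (1 - r ^ 2)) r := by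
  have h2 : (1 - r) ≠ 0 := by linarith
  have h3 : (1 + r) ≠ 0 := by linarith
  have h4 : (1 - r ^ 2) ≠ 0 := by
    rw [show 1 - r ^ 2 = (1 - r) * (1 + r) by ring]
    exact mul_ne_zero h2 h3
  have a1 := ((hasDerivAt_id r).const_add 1).log h3
  have a2 := ((hasDerivAt_id r).const_sub 1).log h2
  have := (a1.sub a2).div_const 2
  refine this.congr_deriv ?_
  simp only [id]
  field_simp
  ring

theorem r_facts {c : ℝ} (h0 : 0 < c) (h1 : c < 1) :
    0 < √(1 - c ^ 2) ∧ √(1 - c ^ 2) < 1 ∧ √(1 - c ^ 2) ^ 2 = 1 - c ^ 2 ∧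
      HasDerivAt (fun c : ℝ => √(1 - c ^ 2)) (-c / √(1 - c ^ 2)) c := by
  have h2 : 0 < 1 - c ^ 2 := by nlinarith
  have h3 := Real.sqrt_pos.2 h2
  refine ⟨h3, ?_, Real.sq_sqrt h2.le, ?_⟩
  · rw [Real.sqrt_lt' one_pos]; nlinarith
  · have := ((hasDerivAt_pow 2 c).const_sub 1).sqrt h2.ne'
    refine this.congr_deriv ?_
    field_simp
    simp

theorem hasDerivAt_E {c : ℝ} (h0 : 0 < c) (h1 : c < 1) :
    HasDerivAt E (c * A √(1 - c ^ 2) / √(1 - c ^ 2)) c := by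
  obtain ⟨r0, r1, -, r3⟩ := r_facts h0 h1
  have a1 := (r3.const_add 1).div_const 2
  have a2 := (Real.hasDerivAt_binEntropy (p := (1 + √(1 - c ^ 2)) / 2) (by positivity)
    (by linarith)).comp c a1
  refine a2.congr_deriv ?_
  rw [show 1 - (1 + √(1 - c ^ 2)) / 2 = (1 - √(1 - c ^ 2)) / 2 by ring,
    Real.log_div (by linarith) two_ne_zero, Real.log_div (by linarith) two_ne_zero]
  unfold A
  field_simp
  ring

theorem hasDerivAt_E' {c : ℝ} (h0 : 0 < c) (h1 : c < 1) :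
    HasDerivAt (fun c => c * A √(1 - c ^ 2) / √(1 - c ^ 2))
      ((A √(1 - c ^ 2) - √(1 - c ^ 2)) / √(1 - c ^ 2) ^ 3) c := by
  obtain ⟨r0, r1, r2, r3⟩ := r_facts h0 h1
  have a1 := (hasDerivAt_A r0.le r1).comp c r3
  have a2 := ((hasDerivAt_id c).mul a1).div r3 r0.ne'
  refine a2.congr_deriv ?_
  simp only [id, Function.comp, Pi.mul_apply]
  generalize A √(1 - c ^ 2) = a
  generalize √(1 - c ^ 2) = r at r0 r1 r2
  have e : 1 - r ^ 2 = c ^ 2 := by linarith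
  rw [e]
  field_simp
  linear_combination a * r2

theorem continuous_E : Continuous E := by
  unfold E
  exact Real.binEntropy_continuous.comp (by fun_prop)

theorem E_convex : ConvexOn ℝ (Set.Icc (0 : ℝ) 1) E := by
  refine convexOn_of_hasDerivWithinAt2_nonneg (convex_Icc 0 1) continuous_E.continuousOn
    (f' := fun c => c * A √(1 - c ^ 2) / √(1 - c ^ 2))
    (f'' := fun c => (A √(1 - c ^ 2) - √(1 - c ^ 2)) / √(1 - c ^ 2) ^ 3) ?_ ?_ ?_
  · intro c hc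
    rw [interior_Icc] at hc
    exact (hasDerivAt_E hc.1 hc.2).hasDerivWithinAt
  · intro c hc
    rw [interior_Icc] at hc
    exact (hasDerivAt_E' hc.1 hc.2).hasDerivWithinAt
  · intro c hc
    rw [interior_Icc] at hc
    obtain ⟨r0, r1, -, -⟩ := r_facts hc.1 hc.2
    exact div_nonneg (sub_nonneg.2 (le_A r0.le r1)) (by positivity)

theorem E_mono : MonotoneOn E (Set.Icc (0 : ℝ) 1) := by
  refine monotoneOn_of_hasDerivWithinAt_nonneg (convex_Icc 0 1) continuous_E.continuousOn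
    (f' := fun c => c * A √(1 - c ^ 2) / √(1 - c ^ 2)) ?_ ?_
  · intro c hc
    rw [interior_Icc] at hc
    exact (hasDerivAt_E hc.1 hc.2).hasDerivWithinAt
  · intro c hc
    rw [interior_Icc] at hc
    obtain ⟨r0, r1, -, -⟩ := r_facts hc.1 hc.2
    exact div_nonneg (mul_nonneg hc.1.le (r0.le.trans (le_A r0.le r1))) r0.le

theorem C_convex {α β : ℝ} (hα : 0 ≤ α) (hβ : 0 ≤ β) (u v a b : ℝ) (ha : 0 ≤ a) (hb : 0 ≤ b)
    (hab : a + b = 1) :
    √(α * (a * u + b * v) ^ 2 + β) ≤ a * √(α * u ^ 2 + β) + b * √(α * v ^ 2 + β) := by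
  have hu : 0 ≤ α * u ^ 2 + β := by positivity
  have hv : 0 ≤ α * v ^ 2 + β := by positivity
  have h1 : α * u * v + β ≤ √(α * u ^ 2 + β) * √(α * v ^ 2 + β) := by
    rw [← Real.sqrt_mul hu]
    refine Real.le_sqrt_of_sq_le ?_
    nlinarith [mul_nonneg (mul_nonneg hα hβ) (sq_nonneg (u - v))]
  rw [Real.sqrt_le_iff]
  refine ⟨by positivity, ?_⟩
  have e : (a * √(α * u ^ 2 + β) + b * √(α * v ^ 2 + β)) ^ 2 =
      a ^ 2 * (α * u ^ 2 + β) + b ^ 2 * (α * v ^ 2 + β) +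
        2 * a * b * (√(α * u ^ 2 + β) * √(α * v ^ 2 + β)) := by
    rw [add_sq, mul_pow, mul_pow, Real.sq_sqrt hu, Real.sq_sqrt hv]; ring
  have h2 := mul_le_mul_of_nonneg_left h1 (show 0 ≤ 2 * a * b by positivity)
  have e2 : β = (a + b) ^ 2 * β := by rw [hab]; ring
  rw [e]
  nlinarith

end Conv

open Conv in
theorem fmin_convex {γ ν : ℝ} (hγ : γ ∈ Set.Icc (0 : ℝ) 1) (hν : ν ∈ Set.Icc (0 : ℝ) 1) :
    ConvexOn ℝ (Set.Icc (0 : ℝ) 1) (fmin γ ν) := by
  have hγ1 : 0 ≤ 1 - γ := sub_nonneg.2 hγ.2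
  have hν1 : 0 ≤ 1 - ν := sub_nonneg.2 hν.2
  have hα : 0 ≤ 4 * γ * (1 - γ) := by have := hγ.1; positivity
  have hβ : 0 ≤ 4 * γ * ν * (1 - ν) := by have := hγ.1; have := hν.1; positivity
  have hf : ∀ q, fmin γ ν q = E √(4 * γ * (1 - γ) * (q - ν) ^ 2 + 4 * γ * ν * (1 - ν)) := by
    intro q
    unfold fmin E
    rw [Real.sq_sqrt (by positivity)]
    congr 4
    ring
  have hm : ∀ q ∈ Set.Icc (0 : ℝ) 1,
      √(4 * γ * (1 - γ) * (q - ν) ^ 2 + 4 * γ * ν * (1 - ν)) ∈ Set.Icc (0 : ℝ) 1 := by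
    intro q hq
    refine ⟨Real.sqrt_nonneg _, Real.sqrt_le_one.2 ?_⟩
    have h1 : 0 ≤ 4 * (1 - γ) * q * (1 - q) := by
      have := hq.1; have := sub_nonneg.2 hq.2; positivity
    nlinarith [sq_nonneg (1 - 2 * ((1 - γ) * q + γ * ν))]
  refine ⟨convex_Icc 0 1, fun x hx y hy a b ha hb hab => ?_⟩
  have h1 := E_convex.2 (hm x hx) (hm y hy) ha hb hab
  have h2 := C_convex hα hβ (x - ν) (y - ν) a b ha hb hab
  have e : a * (x - ν) + b * (y - ν) = a • x + b • y - ν := by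
    simp only [smul_eq_mul]
    linear_combination (-ν) * hab
  rw [e] at h2
  rw [hf, hf, hf]
  exact (E_mono (hm _ (convex_Icc 0 1 hx hy ha hb hab))
    (convex_Icc 0 1 (hm x hx) (hm y hy) ha hb hab) h2).trans h1

end Vale.Agent.P358
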