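import Vale.Agent.P358.Spec

namespace Vale.Agent.P358

open Matrix
open scoped ComplexOrder

set_option linter.unusedSectionVars false

variable {n m : Type} [Fintype n] [DecidableEq n] [Fintype m] [DecidableEq m]

/-- quadratic form -/
noncomputable def qf (A : Matrix n n ℂ) (v : n → ℂ) : ℝ := (star v ⬝ᵥ A *ᵥ v).re

theorem qf_add (A B : Matrix n n ℂ) (v : n → ℂ) : qf (A + B) v = qf A v + qf B v := by
  simp [qf, add_mulVec, dotProduct_add]

theorem qf_sub (A B : Matrix n n ℂ) (v : n → ℂ) : qf (A - B) v = qf A v - qf B v := by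
  simp [qf, sub_mulVec, dotProduct_sub]

theorem qf_smul (c : ℝ) (A : Matrix n n ℂ) (v : n → ℂ) : qf ((c : ℂ) • A) v = c * qf A v := by
  simp [qf, smul_mulVec, dotProduct_smul]

theorem qf_conj (P : Matrix m m ℂ) (L : Matrix m n ℂ) (v : n → ℂ) :
    qf (Lᴴ * P * L) v = qf P (L *ᵥ v) := by
  unfold qf
  rw [star_mulVec, ← mulVec_mulVec, ← mulVec_mulVec, dotProduct_mulVec]

theorem qf_nonneg {A : Matrix n n ℂ} (hA : A.PosSemidef) (v : n → ℂ) : 0 ≤ qf A v :=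
  (Complex.nonneg_iff.mp (hA.dotProduct_mulVec_nonneg v)).1

theorem qf_diagonal (d : n → ℝ) (c : n → ℂ) :
    qf (diagonal fun i => (d i : ℂ)) c = ∑ j, d j * Complex.normSq (c j) := by
  unfold qf
  rw [dotProduct, Complex.re_sum]
  refine Finset.sum_congr rfl fun j _ => ?_
  rw [mulVec_diagonal]
  have : star c j * ((d j : ℂ) * c j) = ((d j * Complex.normSq (c j) : ℝ) : ℂ) := by
    rw [Complex.ofReal_mul, Complex.normSq_eq_conj_mul_self]
    simp only [Pi.star_apply, RCLike.star_def]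
    ring
  rw [this, Complex.ofReal_re]

theorem Dg.qf_eq {A U : Matrix n n ℂ} {d : n → ℝ} (h : Dg A U d) (c : n → ℂ) :
    qf A (U *ᵥ c) = ∑ j, d j * Complex.normSq (c j) := by
  rw [← qf_conj, h.conj, qf_diagonal]

theorem Dg.qf_one {A U : Matrix n n ℂ} {d : n → ℝ} (h : Dg A U d) (c : n → ℂ) :
    qf 1 (U *ᵥ c) = ∑ j, Complex.normSq (c j) := by
  have h1 : Dg (1 : Matrix n n ℂ) U (fun _ => 1) := ⟨h.l, h.r, by simp [h.r]⟩
  simpa using h1.qf_eq c

theorem sum_dite_ext (p : n → Prop) [DecidablePred p] (f : n → ℂ) (c : {j // p j} → ℂ) :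
    ∑ j, f j * (if h : p j then c ⟨j, h⟩ else 0) = ∑ j : {j // p j}, f j * c j := by
  rw [← Fintype.sum_subtype_add_sum_subtype p]
  have h1 : ∑ j : {j // ¬ p j}, f j * (if h : p j then c ⟨j, h⟩ else 0) = 0 :=
    Finset.sum_eq_zero fun j _ => by rw [dif_neg j.2, mul_zero]
  rw [h1, add_zero]
  exact Finset.sum_congr rfl fun j _ => by rw [dif_pos j.2]

/-- inertia comparison -/
theorem card_le_of_form {A U : Matrix n n ℂ} {a : n → ℝ} (hA : Dg A U a)
    {P V : Matrix m m ℂ} {p : m → ℝ} (hP : Dg P V p) (L : Matrix m n ℂ) (s y : ℝ)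
    (h : ∀ v : n → ℂ, s * qf 1 v < qf A v → y * qf 1 (L *ᵥ v) < qf P (L *ᵥ v)) :
    (Finset.univ.filter fun j => s < a j).card ≤ (Finset.univ.filter fun i => y < p i).card := by
  by_contra hlt
  rw [not_le] at hlt
  let B : Matrix {i // y < p i} {j // s < a j} ℂ :=
    (Vᴴ * L * U).submatrix Subtype.val Subtype.val
  have hker : LinearMap.ker B.mulVecLin ≠ ⊥ := by
    apply LinearMap.ker_ne_bot_of_finrank_lt
    rw [Module.finrank_fintype_fun_eq_card, Module.finrank_fintype_fun_eq_card,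
      Fintype.card_subtype, Fintype.card_subtype]
    exact hlt
  obtain ⟨c, hc, hc0⟩ := Submodule.exists_mem_ne_zero_of_ne_bot hker
  have hBc : B *ᵥ c = 0 := hc
  let c' : n → ℂ := fun j => if hj : s < a j then c ⟨j, hj⟩ else 0
  have h1 : s * qf 1 (U *ᵥ c') < qf A (U *ᵥ c') := by
    rw [hA.qf_one, hA.qf_eq, Finset.mul_sum]
    obtain ⟨j0, hj0⟩ := Function.ne_iff.mp hc0
    refine Finset.sum_lt_sum (fun j _ => ?_) ⟨j0.1, Finset.mem_univ _, ?_⟩
    · by_cases hj : s < a j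
      · exact mul_le_mul_of_nonneg_right hj.le (Complex.normSq_nonneg _)
      · simp [c', hj]
    · have : c' j0.1 = c j0 := by simp [c', j0.2]
      rw [this]
      exact mul_lt_mul_of_pos_right j0.2 (Complex.normSq_pos.mpr hj0)
  have h2 := h _ h1
  let z : m → ℂ := (Vᴴ * L * U) *ᵥ c'
  have hz : L *ᵥ (U *ᵥ c') = V *ᵥ z := by
    simp only [z, mulVec_mulVec, ← Matrix.mul_assoc, hP.r, Matrix.one_mul]
  have hz0 : ∀ i, y < p i → z i = 0 := by
    intro i hi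
    have e := congrFun hBc ⟨i, hi⟩
    rw [Pi.zero_apply] at e
    rw [← e]
    exact sum_dite_ext (fun j => s < a j) (fun j => (Vᴴ * L * U) i j) c
  rw [hz, hP.qf_one, hP.qf_eq, Finset.mul_sum] at h2
  refine absurd h2 (not_lt.mpr (Finset.sum_le_sum fun i _ => ?_))
  by_cases hi : y < p i
  · simp [hz0 i hi]
  · exact mul_le_mul_of_nonneg_right (not_lt.mp hi) (Complex.normSq_nonneg _)

theorem posDef_shift {β : Matrix n n ℂ} (hβ : β.PosSemidef) {s : ℝ} (hs : 0 < s) :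
    ((s : ℂ) • (1 : Matrix n n ℂ) + β).PosDef :=
  (PosDef.one.smul (Complex.zero_lt_real.mpr hs)).add_posSemidef hβ

theorem posSemidef_resolvent {β : Matrix n n ℂ} (hβ : β.PosSemidef) (D : Matrix n m ℂ) {s : ℝ}
    (hs : 0 < s) : (Dᴴ * ((s : ℂ) • (1 : Matrix n n ℂ) + β)⁻¹ * D).PosSemidef :=
  (posDef_shift hβ hs).posSemidef.inv.conjTranspose_mul_mul_same D

theorem count_resolvent {β : Matrix n n ℂ} (hβ : β.PosSemidef) (D : Matrix n m ℂ) {s y : ℝ}
    (hs : 0 < s) (hy : 0 < y) {U : Matrix n n ℂ} {a : n → ℝ}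
    (hA : Dg (((y⁻¹ : ℝ) : ℂ) • (D * Dᴴ) - β) U a) {V : Matrix m m ℂ} {p : m → ℝ}
    (hP : Dg (Dᴴ * ((s : ℂ) • (1 : Matrix n n ℂ) + β)⁻¹ * D) V p) :
    (Finset.univ.filter fun j => s < a j).card ≤ (Finset.univ.filter fun i => y < p i).card := by
  refine card_le_of_form hA hP Dᴴ s y fun v hv => ?_
  have hM := posDef_shift hβ hs
  generalize hMdef : (s : ℂ) • (1 : Matrix n n ℂ) + β = M at hM hP ⊢
  have hMv : qf M v = s * qf 1 v + qf β v := by rw [← hMdef, qf_add, qf_smul]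
  have hdet : IsUnit M.det := (isUnit_iff_isUnit_det M).mp hM.isUnit
  have hN : D * Dᴴ = (Dᴴ)ᴴ * (1 : Matrix m m ℂ) * Dᴴ := by simp
  have hw : qf 1 (Dᴴ *ᵥ v) = qf (D * Dᴴ) v := by rw [hN, qf_conj]
  rw [qf_sub, qf_smul] at hv
  have hinvH : (M⁻¹)ᴴ = M⁻¹ := hM.inv.isHermitian
  have hexp : (M⁻¹ * (D * Dᴴ) - (y : ℂ) • (1 : Matrix n n ℂ))ᴴ * M
        * (M⁻¹ * (D * Dᴴ) - (y : ℂ) • (1 : Matrix n n ℂ))
      = (Dᴴ)ᴴ * (Dᴴ * M⁻¹ * D) * Dᴴ - ((2 * y : ℝ) : ℂ) • (D * Dᴴ) + ((y ^ 2 : ℝ) : ℂ) • M := by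
    have e1 : M⁻¹ * M = 1 := nonsing_inv_mul M hdet
    have e2 : M * M⁻¹ = 1 := mul_nonsing_inv M hdet
    rw [conjTranspose_sub, conjTranspose_mul, conjTranspose_mul, conjTranspose_smul,
      conjTranspose_one, conjTranspose_conjTranspose, hinvH, Matrix.sub_mul, Matrix.mul_assoc _ _ M,
      e1, Matrix.mul_one, Matrix.sub_mul, Matrix.mul_sub, Matrix.mul_sub]
    have hy' : star (y : ℂ) = (y : ℂ) := Complex.conj_ofReal y
    rw [hy']
    simp only [Matrix.smul_mul, Matrix.mul_smul, Matrix.one_mul, Matrix.mul_one, smul_smul,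
      ← Matrix.mul_assoc, e2]
    push_cast
    module
  have hpos := qf_nonneg (hM.posSemidef.conjTranspose_mul_mul_same
    (M⁻¹ * (D * Dᴴ) - (y : ℂ) • (1 : Matrix n n ℂ))) v
  rw [hexp, qf_add, qf_sub, qf_smul, qf_smul, qf_conj, hMv] at hpos
  rw [hw]
  have hv2 : y ^ 2 * (s * qf 1 v + qf β v) < y * qf (D * Dᴴ) v := by
    have : s * qf 1 v + qf β v < y⁻¹ * qf (D * Dᴴ) v := by linarith
    have h3 := mul_lt_mul_of_pos_left this (pow_pos hy 2)
    have h4 : y ^ 2 * (y⁻¹ * qf (D * Dᴴ) v) = y * qf (D * Dᴴ) v := by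
      field_simp
    linarith
  linarith

end Vale.Agent.P358
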