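import Mathlib

namespace Vale.Agent.P358

open scoped ComplexOrder

open Classical in
/-- von Neumann entropy in bits: `-∑ λ log₂ λ` over the eigenvalues (with multiplicity). -/
noncomputable def vnEntropy {d : Type} [Fintype d] [DecidableEq d] (ρ : Matrix d d ℂ) : ℝ :=
  if h : ρ.IsHermitian then -∑ i, h.eigenvalues i * Real.logb 2 (h.eigenvalues i) else 0

/-- density matrices -/
def IsState {d : Type} [Fintype d] (ρ : Matrix d d ℂ) : Prop :=
  ρ.PosSemidef ∧ ρ.trace = 1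

/-- the Holevo quantities of all finite ensembles of input states -/
def holevoSet {d : Type} [Fintype d] [DecidableEq d] (N : Matrix d d ℂ → Matrix d d ℂ) :
    Set ℝ :=
  {x | ∃ (k : ℕ) (p : Fin k → ℝ) (ρ : Fin k → Matrix d d ℂ),
    (∀ a, 0 ≤ p a) ∧ ∑ a, p a = 1 ∧ (∀ a, IsState (ρ a)) ∧
      x = vnEntropy (∑ a, (p a : ℂ) • N (ρ a)) - ∑ a, p a * vnEntropy (N (ρ a))}

/-- the Holevo capacity `χ(N)` -/
noncomputable def holevo {d : Type} [Fintype d] [DecidableEq d]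
    (N : Matrix d d ℂ → Matrix d d ℂ) : ℝ :=
  sSup (holevoSet N)

/-- the generalized amplitude-damping channel, extended linearly to all `2 × 2` matrices -/
noncomputable def gad (γ ν : ℝ) (M : Matrix (Fin 2) (Fin 2) ℂ) : Matrix (Fin 2) (Fin 2) ℂ :=
  !![M.trace - (((1 - γ : ℝ) : ℂ) * M 1 1 + ((γ * ν : ℝ) : ℂ) * M.trace),
      ((√(1 - γ) : ℝ) : ℂ) * M 0 1;
    ((√(1 - γ) : ℝ) : ℂ) * M 1 0,
      ((1 - γ : ℝ) : ℂ) * M 1 1 + ((γ * ν : ℝ) : ℂ) * M.trace]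

/-- the `n`-fold tensor power of a linear map on qubit matrices, written in the product basis:
it sends `⊗ᵢ |uᵢ⟩⟨vᵢ|` to `⊗ᵢ N(|uᵢ⟩⟨vᵢ|)` and is linear. -/
noncomputable def tensorPow (N : Matrix (Fin 2) (Fin 2) ℂ → Matrix (Fin 2) (Fin 2) ℂ) (n : ℕ)
    (M : Matrix (Fin n → Fin 2) (Fin n → Fin 2) ℂ) : Matrix (Fin n → Fin 2) (Fin n → Fin 2) ℂ :=
  Matrix.of fun x y =>
    ∑ u, ∑ v, (∏ i, N (Matrix.single (u i) (v i) 1) (x i) (y i)) * M u v

/-- the classical capacity `C(N) = sup_{n ≥ 1} χ(N^{⊗ n}) / n` -/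
noncomputable def capacity (N : Matrix (Fin 2) (Fin 2) ℂ → Matrix (Fin 2) (Fin 2) ℂ) : ℝ :=
  sSup {c | ∃ n : ℕ, 1 ≤ n ∧ c = holevo (tensorPow N n) / n}

/-- binary entropy in bits -/
noncomputable def h2 (p : ℝ) : ℝ :=
  -(p * Real.logb 2 p) - (1 - p) * Real.logb 2 (1 - p)

/-- the one-parameter function maximized by the capacity -/
noncomputable def gain (γ ν q : ℝ) : ℝ :=
  h2 ((1 - γ) * q + γ * ν) -
    h2 ((1 + √((1 - 2 * ((1 - γ) * q + γ * ν)) ^ 2 + 4 * (1 - γ) * q * (1 - q))) / 2)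

end Vale.Agent.P358
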