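import Vale.Agent.P358.Tensor

/-
PLAN (achievability).  Inputs: for a sign pattern σ : Fin n → Fin 2 the product pure state
ρ σ x y = ∏ i, ψ (σ i) (x i) (y i), ψ b = !![1-q, ±√(q(1-q)); ±√(q(1-q)), q], uniform weights 2^(-n)
(reindex the ensemble by Fintype.equivFin).
* prodM (A : Fin n → Matrix (Fin 2) (Fin 2) ℂ) := Matrix.of fun x y => ∏ i, A i (x i) (y i);
  prodM A * prodM B = prodM (A * B) (Finset.prod_univ_sum / Fintype.piFinset_univ), conjTranspose,
  prodM 1 = 1, so Dg (A i) (U i) (d i) for all i gives Dg (prodM A) (prodM U) (fun x => ∏ i, d i (x i));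
  hence prodM of states is a state and ent (prodM A) = ∑ i, ent (A i) when ∑ b, d i b = 1
  (∑ x, negMulLog (∏ i, d i (x i)) = ∑ i, ∑ b, negMulLog (d i b), induction with Fin.consEquiv or
  Real.negMulLog_mul).
* tensorPow (gad γ ν) n (prodM A) = prodM (fun i => gad γ ν (A i)) (product-sum swap and linearity
  of gad: ∑ u v, gad (single u v 1) x y * M u v = gad M x y).
* ent (gad γ ν (ψ b)) = fmin γ ν q: eigenvalues d 0 + d 1 = 1 (Dg.trace_eq), d 0 * d 1 = det
  (Dg.det_eq), so (d 0 - d 1)^2 = (1-2t)^2 + 4(1-γ)q(1-q); Real.binEntropy_one_sub.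
* the average output is prodM (fun _ => diagonal ![1-t, t]) with entropy n * binEntropy t.
Finish with vnEntropy_eq and gain_eq.
-/

namespace Vale.Agent.P358

open Matrix
open scoped ComplexOrder

/-- product matrices -/
noncomputable def prodM {n : ℕ} (A : Fin n → Matrix (Fin 2) (Fin 2) ℂ) :
    Matrix (Fin n → Fin 2) (Fin n → Fin 2) ℂ :=
  Matrix.of fun x y => ∏ i, A i (x i) (y i)

theorem sum_prod_pi {R : Type} [CommSemiring R] {n : ℕ} (f : Fin n → Fin 2 → R) :
    ∑ x : Fin n → Fin 2, ∏ i, f i (x i) = ∏ i, ∑ b, f i b := by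
  rw [Finset.prod_univ_sum, Fintype.piFinset_univ]

theorem prodM_mul {n : ℕ} (A B : Fin n → Matrix (Fin 2) (Fin 2) ℂ) :
    prodM A * prodM B = prodM fun i => A i * B i := by
  ext x y
  simp only [prodM, Matrix.mul_apply, of_apply, ← Finset.prod_mul_distrib]
  exact sum_prod_pi fun i b => A i (x i) b * B i b (y i)

theorem prodM_conj {n : ℕ} (A : Fin n → Matrix (Fin 2) (Fin 2) ℂ) :
    (prodM A)ᴴ = prodM fun i => (A i)ᴴ := by
  ext x y
  simp only [prodM, conjTranspose_apply, of_apply, star_prod]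

theorem prodM_diag {n : ℕ} (d : Fin n → Fin 2 → ℂ) :
    (prodM fun i => diagonal (d i)) = diagonal fun x => ∏ i, d i (x i) := by
  ext x y
  by_cases h : x = y
  · subst h
    simp [prodM]
  · obtain ⟨i, hi⟩ := Function.ne_iff.1 h
    rw [diagonal_apply_ne _ h, prodM, of_apply]
    exact Finset.prod_eq_zero (Finset.mem_univ i) (diagonal_apply_ne _ hi)

theorem prodM_one {n : ℕ} : (prodM fun _ : Fin n => 1) = 1 := by
  have := prodM_diag (n := n) fun _ _ => 1
  simpa using this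

theorem dg_prodM {n : ℕ} {A U : Fin n → Matrix (Fin 2) (Fin 2) ℂ} {d : Fin n → Fin 2 → ℝ}
    (h : ∀ i, Dg (A i) (U i) (d i)) : Dg (prodM A) (prodM U) fun x => ∏ i, d i (x i) := by
  refine ⟨?_, ?_, ?_⟩
  · rw [prodM_conj, prodM_mul]
    simp only [fun i => (h i).l, prodM_one]
  · rw [prodM_conj, prodM_mul]
    simp only [fun i => (h i).r, prodM_one]
  · simp only [Complex.ofReal_prod]
    rw [← prodM_diag fun i b => (d i b : ℂ), prodM_conj, prodM_mul, prodM_mul]
    exact congrArg prodM (funext fun i => (h i).eq)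

theorem sum_negMulLog_prod : ∀ {n : ℕ} (d : Fin n → Fin 2 → ℝ), (∀ i, ∑ b, d i b = 1) →
    ∑ x : Fin n → Fin 2, Real.negMulLog (∏ i, d i (x i)) = ∑ i, ∑ b, Real.negMulLog (d i b)
  | 0, d, _ => by simp
  | n + 1, d, h => by
    have ih := sum_negMulLog_prod (fun i : Fin n => d i.succ) fun i => h _
    have h1 : ∑ x : Fin n → Fin 2, ∏ i, d i.succ (x i) = 1 := by
      rw [sum_prod_pi fun i : Fin n => d i.succ]
      simp only [h, Finset.prod_const_one]
    rw [sum_cons, Fin.sum_univ_succ (n := n)]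
    simp only [Fin.prod_univ_succ, Fin.cons_zero, Fin.cons_succ, Real.negMulLog_mul,
      Finset.sum_add_distrib, ← Finset.mul_sum, ← Finset.sum_mul, h1, ih, h, one_mul]

theorem gad_lin (γ ν : ℝ) (M : Matrix (Fin 2) (Fin 2) ℂ) (x y : Fin 2) :
    ∑ u, ∑ v, gad γ ν (Matrix.single u v 1) x y * M u v = gad γ ν M x y := by
  simp only [gad_single, Fin.sum_univ_two]
  fin_cases x <;> fin_cases y <;> simp [gad, tpT, tpW, Matrix.trace_fin_two] <;> ring

theorem tp_prodM (γ ν : ℝ) {n : ℕ} (A : Fin n → Matrix (Fin 2) (Fin 2) ℂ) :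
    tensorPow (gad γ ν) n (prodM A) = prodM fun i => gad γ ν (A i) := by
  ext x y
  simp only [tensorPow, prodM, of_apply, ← Finset.prod_mul_distrib, ← gad_lin γ ν (A _)]
  rw [← sum_prod_pi fun i u => ∑ v, gad γ ν (Matrix.single u v 1) (x i) (y i) * A i u v]
  refine Finset.sum_congr rfl fun u _ => ?_
  exact sum_prod_pi fun i v => gad γ ν (Matrix.single (u i) v 1) (x i) (y i) * A i (u i) v

/-- real symmetric trace-one `2 × 2` matrices -/
def symM (t s : ℝ) : Matrix (Fin 2) (Fin 2) ℂ := !![((1 - t : ℝ) : ℂ), (s : ℂ); (s : ℂ), (t : ℂ)]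

theorem symM_dg (t s : ℝ) :
    ∃ U d, Dg (symM t s) U d ∧ d 0 + d 1 = 1 ∧ d 0 * d 1 = (1 - t) * t - s ^ 2 := by
  have hH : (symM t s).IsHermitian := by
    ext i j
    fin_cases i <;> fin_cases j <;> simp [symM]
  obtain ⟨U, d, h⟩ := exists_dg hH
  refine ⟨U, d, h, ?_, ?_⟩
  · have := h.trace_eq
    rw [Matrix.trace_fin_two, Fin.sum_univ_two] at this
    apply Complex.ofReal_injective
    rw [← this]
    simp [symM]
  · have := h.det_eq
    rw [Matrix.det_fin_two, Fin.prod_univ_two] at this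
    apply Complex.ofReal_injective
    rw [← this]
    simp [symM, sq]

theorem gad_symM (γ ν q s : ℝ) :
    gad γ ν (symM q s) = symM ((1 - γ) * q + γ * ν) (√(1 - γ) * s) := by
  ext i j
  fin_cases i <;> fin_cases j <;> simp [gad, symM, Matrix.trace_fin_two]

theorem bin_of_sq {a D : ℝ} (h : (2 * a - 1) ^ 2 = D) :
    Real.binEntropy ((1 + √D) / 2) = Real.negMulLog a + Real.negMulLog (1 - a) := by
  rw [← h, Real.sqrt_sq_eq_abs, ← Real.binEntropy_eq_negMulLog_add_negMulLog_one_sub]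
  rcases abs_choice (2 * a - 1) with h' | h' <;> rw [h']
  · congr 1
    ring
  · rw [← Real.binEntropy_one_sub a]
    congr 1
    ring

theorem mem_holevoSet {d ι : Type} [Fintype d] [DecidableEq d] [Fintype ι]
    (N : Matrix d d ℂ → Matrix d d ℂ) (p : ι → ℝ) (ρ : ι → Matrix d d ℂ) (h0 : ∀ a, 0 ≤ p a)
    (h1 : ∑ a, p a = 1) (hρ : ∀ a, IsState (ρ a)) :
    vnEntropy (∑ a, (p a : ℂ) • N (ρ a)) - ∑ a, p a * vnEntropy (N (ρ a)) ∈ holevoSet N := by
  let e := (Fintype.equivFin ι).symm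
  refine ⟨_, fun a => p (e a), fun a => ρ (e a), fun a => h0 _, ?_, fun a => hρ _, ?_⟩
  · rw [← h1]
    exact e.sum_comp p
  · rw [← e.sum_comp fun a => (p a : ℂ) • N (ρ a),
      ← e.sum_comp fun a => p a * vnEntropy (N (ρ a))]

theorem lower {γ ν q : ℝ} (hγ : γ ∈ Set.Icc (0 : ℝ) 1) (hν : ν ∈ Set.Icc (0 : ℝ) 1)
    (hq : q ∈ Set.Icc (0 : ℝ) 1) (n : ℕ) :
    (n : ℝ) * gain γ ν q ∈ holevoSet (tensorPow (gad γ ν) n) := by
  have _ := hν
  obtain ⟨s, hs, hs0⟩ : ∃ s : Fin 2 → ℝ, (∀ b, s b ^ 2 = (1 - q) * q) ∧ s 0 + s 1 = 0 := by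
    refine ⟨![√((1 - q) * q), -√((1 - q) * q)], fun b => ?_, by simp⟩
    have := Real.sq_sqrt (mul_nonneg (sub_nonneg.2 hq.2) hq.1)
    fin_cases b <;> simpa using this
  set t := (1 - γ) * q + γ * ν with ht
  choose U d hd hd1 hd2 using fun b => symM_dg q (s b)
  choose V e he he1 he2 using fun b => symM_dg t (√(1 - γ) * s b)
  obtain ⟨W, f, hf, hf1, hf2⟩ := symM_dg t 0
  have hd0 : ∀ b c, 0 ≤ d b c := fun b c => by
    have h1 := hd1 b
    have h2 := hd2 b
    rw [hs, sub_self] at h2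
    fin_cases c
    · change 0 ≤ d b 0
      nlinarith [sq_nonneg (d b 0)]
    · change 0 ≤ d b 1
      nlinarith [sq_nonneg (d b 1)]
  have hmem := mem_holevoSet (tensorPow (gad γ ν) n) (fun _ : Fin n → Fin 2 => (1 / 2 : ℝ) ^ n)
    (fun σ => prodM fun i => symM q (s (σ i))) (fun _ => by positivity) (by simp) fun σ => by
      have h := dg_prodM fun i => hd (σ i)
      refine ⟨h.posSemidef fun x => Finset.prod_nonneg fun i _ => hd0 _ _, ?_⟩
      rw [h.trace_eq, sum_prod_pi fun i => d (σ i)]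
      simp only [Fin.sum_univ_two, hd1, Finset.prod_const_one, Complex.ofReal_one]
  simp only [tp_prodM, gad_symM, ← ht] at hmem
  have h1 : ∑ σ : Fin n → Fin 2, (((1 / 2 : ℝ) ^ n : ℝ) : ℂ) •
      (prodM fun i => symM t (√(1 - γ) * s (σ i))) = prodM fun _ => symM t 0 := by
    ext x y
    have : ∀ c c', symM t 0 c c' = ∑ b, (1 / 2 : ℂ) * symM t (√(1 - γ) * s b) c c' := by
      intro c c'
      have h3 : (s 0 : ℂ) + s 1 = 0 := by exact_mod_cast hs0
      rw [Fin.sum_univ_two]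
      fin_cases c <;> fin_cases c' <;> simp [symM]
      · ring
      · linear_combination (-(2⁻¹ * (√(1 - γ) : ℂ))) * h3
      · linear_combination (-(2⁻¹ * (√(1 - γ) : ℂ))) * h3
      · ring
    simp only [prodM, Matrix.sum_apply, Matrix.smul_apply, of_apply, smul_eq_mul, this]
    rw [← sum_prod_pi fun i b => (1 / 2 : ℂ) * symM t (√(1 - γ) * s b) (x i) (y i)]
    refine Finset.sum_congr rfl fun σ _ => ?_
    rw [Finset.prod_mul_distrib]
    simp
  have h2 : ∀ σ : Fin n → Fin 2, vnEntropy (prodM fun i => symM t (√(1 - γ) * s (σ i))) =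
      n * fmin γ ν q / Real.log 2 := fun σ => by
    have h := dg_prodM fun i => he (σ i)
    rw [vnEntropy_eq h.isHermitian, h.ent_eq,
      sum_negMulLog_prod (fun i => e (σ i)) fun i => by rw [Fin.sum_univ_two, he1]]
    have : ∀ b, ∑ c, Real.negMulLog (e b c) = fmin γ ν q := fun b => by
      have h4 : e b 1 = 1 - e b 0 := by linarith [he1 b]
      have h5 := he2 b
      rw [mul_pow, Real.sq_sqrt (sub_nonneg.2 hγ.2), hs, h4] at h5
      rw [Fin.sum_univ_two, h4, fmin, ← ht, bin_of_sq (a := e b 0) (by linear_combination (-4) * h5)]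
    simp only [this, Finset.sum_const, Finset.card_univ, Fintype.card_fin, nsmul_eq_mul]
  have h3 : vnEntropy (prodM fun _ : Fin n => symM t 0) = n * Real.binEntropy t / Real.log 2 := by
    have h := dg_prodM fun _ : Fin n => hf
    rw [vnEntropy_eq h.isHermitian, h.ent_eq,
      sum_negMulLog_prod (fun _ => f) fun i => by rw [Fin.sum_univ_two, hf1]]
    have : ∑ c, Real.negMulLog (f c) = Real.binEntropy t := by
      have h4 : f 1 = 1 - f 0 := by linarith
      rw [h4] at hf2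
      rw [Fin.sum_univ_two, h4, ← bin_of_sq (a := f 0) (D := (2 * t - 1) ^ 2)
        (by linear_combination (-4) * hf2), bin_of_sq (a := t) rfl,
        Real.binEntropy_eq_negMulLog_add_negMulLog_one_sub]
    simp only [this, Finset.sum_const, Finset.card_univ, Fintype.card_fin, nsmul_eq_mul]
  rw [h1, h3] at hmem
  simp only [h2] at hmem
  have h4 : (n : ℝ) * gain γ ν q = n * Real.binEntropy t / Real.log 2 -
      ∑ _σ : Fin n → Fin 2, (1 / 2 : ℝ) ^ n * (n * fmin γ ν q / Real.log 2) := by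
    rw [gain_eq, ← ht, ← Finset.sum_mul]
    have : ∑ _σ : Fin n → Fin 2, (1 / 2 : ℝ) ^ n = 1 := by simp
    rw [this]
    ring
  rw [h4]
  exact hmem

theorem vn_submatrix {n m : Type} [Fintype n] [DecidableEq n] [Fintype m] [DecidableEq m]
    (A : Matrix n n ℂ) (e : m ≃ n) : vnEntropy (A.submatrix e e) = vnEntropy A := by
  by_cases h : A.IsHermitian
  · rw [vnEntropy_eq h, vnEntropy_eq (h.submatrix e), ent_submatrix]
  · rw [vnEntropy, vnEntropy, dif_neg h, dif_neg]
    rwa [isHermitian_submatrix_equiv]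

theorem holevoSet_sub {n m : Type} [Fintype n] [DecidableEq n] [Fintype m] [DecidableEq m]
    (e : m ≃ n) {N : Matrix n n ℂ → Matrix n n ℂ} {N' : Matrix m m ℂ → Matrix m m ℂ}
    (h : ∀ M, N' (M.submatrix e e) = (N M).submatrix e e) : holevoSet N ⊆ holevoSet N' := by
  rintro x ⟨k, p, ρ, h0, h1, hρ, rfl⟩
  refine ⟨k, p, fun a => (ρ a).submatrix e e, h0, h1, fun a => ⟨(hρ a).1.submatrix e, ?_⟩, ?_⟩
  · rw [← (hρ a).2]
    exact e.sum_comp fun i => ρ a i i
  · simp only [h, vn_submatrix]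
    rw [← vn_submatrix (∑ a, (p a : ℂ) • N (ρ a)) e]
    congr 2
    ext i j
    simp [Matrix.sum_apply]

/-- one use: the first tensor power has the same Holevo quantities (reindex along
`Equiv.funUnique (Fin 1) (Fin 2)`, `ent_submatrix`, `vnEntropy_eq`) -/
theorem holevoSet_one (γ ν : ℝ) :
    holevoSet (tensorPow (gad γ ν) 1) = holevoSet (gad γ ν) := by
  have h : ∀ M : Matrix (Fin 2) (Fin 2) ℂ,
      tensorPow (gad γ ν) 1 (M.submatrix (Equiv.funUnique (Fin 1) (Fin 2))
        (Equiv.funUnique (Fin 1) (Fin 2))) =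
      (gad γ ν M).submatrix (Equiv.funUnique (Fin 1) (Fin 2)) (Equiv.funUnique (Fin 1) (Fin 2)) := by
    intro M
    have e : ∀ A : Matrix (Fin 2) (Fin 2) ℂ, A.submatrix (Equiv.funUnique (Fin 1) (Fin 2))
        (Equiv.funUnique (Fin 1) (Fin 2)) = prodM fun _ : Fin 1 => A := fun A => by
      ext x y
      simp [prodM]
    rw [e, e, tp_prodM]
  refine Set.Subset.antisymm
    (holevoSet_sub (Equiv.funUnique (Fin 1) (Fin 2)).symm fun M => ?_) (holevoSet_sub _ h)
  have := h (M.submatrix (Equiv.funUnique (Fin 1) (Fin 2)).symm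
    (Equiv.funUnique (Fin 1) (Fin 2)).symm)
  rw [submatrix_submatrix, Equiv.symm_comp_self, submatrix_id_id] at this
  rw [this, submatrix_submatrix, Equiv.self_comp_symm, submatrix_id_id]

end Vale.Agent.P358
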