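import Vale.Agent.P358.Upper
import Vale.Agent.P358.Lower

namespace Vale.Agent.P358

open Set

theorem final (γ ν : ℝ) (hγ : γ ∈ Icc (0 : ℝ) 1) (hν : ν ∈ Icc (0 : ℝ) 1) :
    capacity (gad γ ν) = holevo (gad γ ν) ∧
    (∀ n : ℕ, 1 ≤ n → holevo (tensorPow (gad γ ν) n) = n * holevo (gad γ ν)) ∧
    IsGreatest (gain γ ν '' Icc 0 1) (capacity (gad γ ν)) ∧
    IsGreatest (holevoSet (gad γ ν)) (holevo (gad γ ν)) ∧
    (∀ n : ℕ, 1 ≤ n →
      IsGreatest (holevoSet (tensorPow (gad γ ν) n)) (holevo (tensorPow (gad γ ν) n))) := by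
  obtain ⟨q, hq, hmax⟩ := isCompact_Icc.exists_isMaxOn (nonempty_Icc.mpr (zero_le_one' ℝ))
    (continuous_gain γ ν).continuousOn
  have hG : ∀ p ∈ Icc (0 : ℝ) 1, gain γ ν p ≤ gain γ ν q := fun p hp => hmax hp
  have hn : ∀ n : ℕ, IsGreatest (holevoSet (tensorPow (gad γ ν) n)) (n * gain γ ν q) :=
    fun n => ⟨lower hγ hν hq n, fun x hx => upper hγ hν hG n hx⟩
  have h1 : IsGreatest (holevoSet (gad γ ν)) (gain γ ν q) := by
    have := hn 1
    rwa [holevoSet_one, Nat.cast_one, one_mul] at this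
  have e1 : holevo (gad γ ν) = gain γ ν q := h1.csSup_eq
  have en : ∀ n : ℕ, holevo (tensorPow (gad γ ν) n) = n * gain γ ν q := fun n => (hn n).csSup_eq
  have ec : capacity (gad γ ν) = gain γ ν q := by
    have : {c | ∃ n : ℕ, 1 ≤ n ∧ c = holevo (tensorPow (gad γ ν) n) / n} = {gain γ ν q} := by
      ext c
      constructor
      · rintro ⟨n, hn1, rfl⟩
        have : (n : ℝ) ≠ 0 := Nat.cast_ne_zero.mpr (by omega)
        rw [en, mem_singleton_iff, mul_div_cancel_left₀ _ this]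
      · rintro rfl
        exact ⟨1, le_rfl, by rw [en]; simp⟩
    rw [capacity, this, csSup_singleton]
  refine ⟨by rw [ec, e1], fun n _ => by rw [en, e1], ?_, by rw [e1]; exact h1,
    fun n _ => by rw [en]; exact hn n⟩
  rw [ec]
  exact ⟨⟨q, hq, rfl⟩, by rintro _ ⟨p, hp, rfl⟩; exact hG p hp⟩

end Vale.Agent.P358
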