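import Vale.Agent.P358.Spec

namespace Vale.Agent.P358

open Matrix
open scoped ComplexOrder

/-- output entropy (nats) of the pure input state with excited population `q` -/
noncomputable def fmin (γ ν q : ℝ) : ℝ :=
  Real.binEntropy
    ((1 + √((1 - 2 * ((1 - γ) * q + γ * ν)) ^ 2 + 4 * (1 - γ) * q * (1 - q))) / 2)

/-- excited population of qubit `i` -/
noncomputable def pop {n : ℕ} (M : Matrix (Fin n → Fin 2) (Fin n → Fin 2) ℂ) (i : Fin n) : ℝ :=
  ∑ x, if x i = 1 then (M x x).re else 0

theorem h2_eq (p : ℝ) : h2 p = Real.binEntropy p / Real.log 2 := by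
  rw [h2, Real.binEntropy_eq_negMulLog_add_negMulLog_one_sub, Real.negMulLog, Real.negMulLog,
    Real.logb, Real.logb]
  ring

theorem gain_eq (γ ν q : ℝ) :
    gain γ ν q = (Real.binEntropy ((1 - γ) * q + γ * ν) - fmin γ ν q) / Real.log 2 := by
  rw [gain, h2_eq, h2_eq, fmin, sub_div]

theorem continuous_fmin (γ ν : ℝ) : Continuous (fmin γ ν) := by
  unfold fmin
  exact Real.binEntropy_continuous.comp (by fun_prop)

theorem continuous_gain (γ ν : ℝ) : Continuous (gain γ ν) := by
  have : gain γ ν = fun q =>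
      (Real.binEntropy ((1 - γ) * q + γ * ν) - fmin γ ν q) / Real.log 2 :=
    funext (gain_eq γ ν)
  rw [this]
  exact ((Real.binEntropy_continuous.comp (by fun_prop)).sub (continuous_fmin γ ν)).div_const _

end Vale.Agent.P358
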