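import Vale.Agent.P358.NCI
import Vale.Agent.P358.Scal

namespace Vale.Agent.P358

open Set MeasureTheory Matrix Real Filter Topology
open scoped ComplexOrder

set_option linter.unusedSectionVars false

variable {n m : Type} [Fintype n] [DecidableEq n] [Fintype m] [DecidableEq m]

noncomputable def Phi (b d e k : ℝ) : ℝ :=
  negMulLog ((b + d + e + k - √((b + d - e - k) ^ 2 + 4 * d * k)) / 2)
    + negMulLog ((b + d + e + k + √((b + d - e - k) ^ 2 + 4 * d * k)) / 2)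
    - negMulLog b - negMulLog d - negMulLog e - negMulLog k

theorem nci_pos {b d e k : ℝ} (b0 : 0 < b) (d0 : 0 < d) (e0 : 0 < e) (k0 : 0 < k)
    {β ε : Matrix n n ℂ} (hβ : β.PosSemidef)
    (hε : ε.PosSemidef) (D C : Matrix n m ℂ) (hb : β.trace.re ≤ b) (hd : (D * Dᴴ).trace.re ≤ d)
    (he : ε.trace.re ≤ e) (hk : (C * Cᴴ).trace.re ≤ k) :
    ent β + ent ε + ent (D * Dᴴ) + ent (C * Cᴴ) + Phi b d e k
      ≤ ent (fromBlocks (β + D * Dᴴ) (D * Cᴴ) (C * Dᴴ) (ε + C * Cᴴ)) := by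
  have hdk := mul_pos d0 k0
  have hin : 0 < (b + d - e - k) ^ 2 + 4 * d * k := by positivity
  have hR0 := Real.sqrt_pos.mpr hin
  have hR2 := Real.sq_sqrt hin.le
  unfold Phi
  generalize √((b + d - e - k) ^ 2 + 4 * d * k) = R at hR0 hR2 ⊢
  have hT : 0 < b + d + e + k := by positivity
  have hprod : 0 < b * e + b * k + d * e := by positivity
  have hlt : R < b + d + e + k := by
    by_contra hc
    rw [not_lt] at hc
    nlinarith
  have hu : b + d - e - k ≤ R := by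
    by_contra hc
    rw [not_le] at hc
    nlinarith
  have hl : -(b + d - e - k) ≤ R := by
    by_contra hc
    rw [not_le] at hc
    nlinarith
  have hdet : (b + d + e + k - R) / 2 * ((b + d + e + k + R) / 2) = b * e + b * k + d * e := by
    linear_combination (-1 / 4 : ℝ) * hR2
  have r0 : 0 ≤ (R - (b + d - e - k)) / (2 * R) := div_nonneg (by linarith) (by linarith)
  have r1 : (R - (b + d - e - k)) / (2 * R) ≤ 1 := by
    rw [div_le_one (by linarith)]
    linarith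
  have hmean : (R - (b + d - e - k)) / (2 * R) * ((b + d + e + k - R) / 2)
      + (1 - (R - (b + d - e - k)) / (2 * R)) * ((b + d + e + k + R) / 2) = b + d := by
    field_simp
    ring
  have h : Par ((R - (b + d - e - k)) / (2 * R)) ((b + d + e + k - R) / 2)
      ((b + d + e + k + R) / 2) b d :=
    ⟨r0, r1, by linarith, by linarith, b0, d0, hmean, by nlinarith [mul_pos d0 e0]⟩
  have h' : Par (1 - (R - (b + d - e - k)) / (2 * R)) ((b + d + e + k - R) / 2)
      ((b + d + e + k + R) / 2) e k :=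
    ⟨by linarith, by linarith, by linarith, by linarith, e0, k0, by linarith,
      by nlinarith [mul_pos b0 k0]⟩
  exact nci_par h h' hdet hβ hε D C hb hd he hk

theorem trace_re_nonneg {A : Matrix n n ℂ} (hA : A.PosSemidef) : 0 ≤ A.trace.re :=
  (Complex.nonneg_iff.mp hA.trace_nonneg).1

theorem nci {β ε : Matrix n n ℂ} (hβ : β.PosSemidef) (hε : ε.PosSemidef) (D C : Matrix n m ℂ) :
    ent β + ent ε + ent (D * Dᴴ) + ent (C * Cᴴ)
        + Phi β.trace.re (D * Dᴴ).trace.re ε.trace.re (C * Cᴴ).trace.re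
      ≤ ent (fromBlocks (β + D * Dᴴ) (D * Cᴴ) (C * Dᴴ) (ε + C * Cᴴ)) := by
  have b0 := trace_re_nonneg hβ
  have e0 := trace_re_nonneg hε
  have d0 := trace_re_nonneg (posSemidef_self_mul_conjTranspose D)
  have k0 := trace_re_nonneg (posSemidef_self_mul_conjTranspose C)
  have hc : Continuous fun τ : ℝ => ent β + ent ε + ent (D * Dᴴ) + ent (C * Cᴴ)
      + Phi (β.trace.re + τ) ((D * Dᴴ).trace.re + τ) (ε.trace.re + τ) ((C * Cᴴ).trace.re + τ) := by
    unfold Phi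
    have := continuous_negMulLog
    fun_prop
  have t := (hc.tendsto 0).mono_left (nhdsWithin_le_nhds (s := Ioi 0))
  simp only [add_zero] at t
  refine le_of_tendsto t (eventually_nhdsWithin_of_forall fun τ hτ => ?_)
  have hτ' : 0 < τ := hτ
  exact nci_pos (by linarith) (by linarith) (by linarith) (by linarith) hβ hε D C (by linarith)
    (by linarith) (by linarith) (by linarith)

theorem negMulLog_mix {x y u v : ℝ} (hx : 0 ≤ x) (hy : 0 ≤ y) (hu : 0 ≤ u) (hv : 0 ≤ v) :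
    x * negMulLog u + y * negMulLog v - log (x + y) * (x * u + y * v)
      ≤ negMulLog (x * u + y * v) := by
  rcases (add_nonneg hx hy).eq_or_lt with h | h
  · have hx0 : x = 0 := by linarith
    have hy0 : y = 0 := by linarith
    simp [hx0, hy0]
  · have c := concaveOn_negMulLog.2 (mem_Ici.mpr hu) (mem_Ici.mpr hv) (div_nonneg hx h.le)
      (div_nonneg hy h.le) (by field_simp)
    simp only [smul_eq_mul] at c
    have e : x * u + y * v = (x + y) * (x / (x + y) * u + y / (x + y) * v) := by field_simp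
    have c2 := mul_le_mul_of_nonneg_left c h.le
    have e2 : (x + y) * (x / (x + y) * negMulLog u + y / (x + y) * negMulLog v)
        = x * negMulLog u + y * negMulLog v := by field_simp
    rw [e2] at c2
    conv_rhs => rw [e, negMulLog_mul]
    have e3 : (x / (x + y) * u + y / (x + y) * v) * negMulLog (x + y)
        = -(log (x + y) * (x * u + y * v)) := by
      unfold negMulLog
      field_simp
    linarith

theorem ent_mix {X Z : Matrix n n ℂ} (hX : IsState X) (hZ : IsState Z) {x y : ℝ} (hx : 0 ≤ x)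
    (hy : 0 ≤ y) :
    negMulLog (x + y) + x * ent X + y * ent Z ≤ ent ((x : ℂ) • X + (y : ℂ) • Z) := by
  have hA : ((x : ℂ) • X + (y : ℂ) • Z).PosSemidef :=
    (hX.1.smul (Complex.zero_le_real.mpr hx)).add (hZ.1.smul (Complex.zero_le_real.mpr hy))
  obtain ⟨V, l, hV⟩ := exists_dg hA.isHermitian
  have j1 := mul_le_mul_of_nonneg_left (ent_le_diag hX.1 hV.l hV.r) hx
  have j2 := mul_le_mul_of_nonneg_left (ent_le_diag hZ.1 hV.l hV.r) hy
  have s1 := sum_re_conj X hV.r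
  have s2 := sum_re_conj Z hV.r
  rw [hX.2, Complex.one_re] at s1
  rw [hZ.2, Complex.one_re] at s2
  have j3 : ∑ i, (x * negMulLog ((Vᴴ * X * V) i i).re + y * negMulLog ((Vᴴ * Z * V) i i).re
      - log (x + y) * (x * ((Vᴴ * X * V) i i).re + y * ((Vᴴ * Z * V) i i).re))
      ≤ ∑ i, negMulLog (l i) := by
    refine Finset.sum_le_sum fun i _ => ?_
    have : l i = x * ((Vᴴ * X * V) i i).re + y * ((Vᴴ * Z * V) i i).re := by
      rw [← hV.re_conj i, Matrix.mul_add, Matrix.add_mul, Matrix.mul_smul, Matrix.mul_smul,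
        Matrix.smul_mul, Matrix.smul_mul, Matrix.add_apply, Matrix.smul_apply, Matrix.smul_apply,
        smul_eq_mul, smul_eq_mul, Complex.add_re, Complex.re_ofReal_mul, Complex.re_ofReal_mul]
    rw [this]
    exact negMulLog_mix hx hy (re_conj_nonneg hX.1 V i) (re_conj_nonneg hZ.1 V i)
  rw [Finset.sum_sub_distrib, Finset.sum_add_distrib, ← Finset.mul_sum, ← Finset.mul_sum,
    ← Finset.mul_sum, Finset.sum_add_distrib, ← Finset.mul_sum, ← Finset.mul_sum, s1, s2,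
    ← hV.ent_eq] at j3
  unfold negMulLog at *
  linarith

theorem exists_factor {A : Matrix n n ℂ} (hA : A.PosSemidef) :
    ∃ B : Matrix n n ℂ, A = B * Bᴴ := by
  obtain ⟨U, d, h⟩ := exists_dg hA.isHermitian
  refine ⟨U * diagonal (fun i => ((√(d i) : ℝ) : ℂ)), ?_⟩
  have e : diagonal (fun i => (d i : ℂ)) = diagonal (fun i => ((√(d i) : ℝ) : ℂ))
      * (diagonal (fun i => ((√(d i) : ℝ) : ℂ)))ᴴ := by
    rw [diagonal_conjTranspose, diagonal_mul_diagonal]
    congr 1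
    funext i
    rw [Pi.star_apply, RCLike.star_def, Complex.conj_ofReal, ← Complex.ofReal_mul,
      Real.mul_self_sqrt (h.nonneg hA i)]
  rw [conjTranspose_mul]
  conv_lhs => rw [h.eq, e]
  simp only [Matrix.mul_assoc]

theorem smul_mul_smul_conj (s t : ℝ) (x z : Matrix n m ℂ) :
    ((s : ℂ) • x) * ((t : ℂ) • z)ᴴ = ((s * t : ℝ) : ℂ) • (x * zᴴ) := by
  rw [conjTranspose_smul, Matrix.smul_mul, Matrix.mul_smul, smul_smul, RCLike.star_def,
    Complex.conj_ofReal, Complex.ofReal_mul]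

theorem trace_re_smul (c : ℝ) {X : Matrix n n ℂ} (hX : IsState X) :
    ((c : ℂ) • X).trace.re = c := by
  rw [trace_smul, hX.2, smul_eq_mul, mul_one, Complex.ofReal_re]

/-- the key entropy inequality -/
theorem key {γ ν : ℝ} (hγ : γ ∈ Icc (0 : ℝ) 1) (hν : ν ∈ Icc (0 : ℝ) 1) {q : ℝ}
    (hq : q ∈ Icc (0 : ℝ) 1) {X Y W Z : Matrix n n ℂ} (hX : IsState X) (hZ : IsState Z)
    (hρ : (fromBlocks (((1 - q : ℝ) : ℂ) • X) Y W ((q : ℂ) • Z)).PosSemidef) :
    fmin γ ν q + (1 - q) * ent X + q * ent Z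
      ≤ ent (fromBlocks
        (((1 - γ * ν : ℝ) : ℂ) • (((1 - q : ℝ) : ℂ) • X) + ((γ * (1 - ν) : ℝ) : ℂ) • ((q : ℂ) • Z))
        (((√(1 - γ) : ℝ) : ℂ) • Y) (((√(1 - γ) : ℝ) : ℂ) • W)
        (((γ * ν : ℝ) : ℂ) • (((1 - q : ℝ) : ℂ) • X)
          + ((1 - γ + γ * ν : ℝ) : ℂ) • ((q : ℂ) • Z))) := by
  obtain ⟨g0, g1⟩ := hγ
  obtain ⟨n0, n1⟩ := hν
  obtain ⟨q0, q1⟩ := hq
  obtain ⟨Ψ, hΨ⟩ := exists_factor hρ
  rw [← fromRows_toRows Ψ, conjTranspose_fromRows_eq_fromCols_conjTranspose,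
    fromRows_mul_fromCols, fromBlocks_inj] at hΨ
  obtain ⟨e1, e2, e3, e4⟩ := hΨ
  generalize Ψ.toRows₁ = x at e1 e2 e3 e4
  generalize Ψ.toRows₂ = z at e1 e2 e3 e4
  have hgn : 0 ≤ γ * ν := mul_nonneg g0 n0
  have ha : 0 ≤ 1 - γ * ν := by nlinarith
  obtain ⟨c', hc0, hc1, hc2⟩ : ∃ c' : ℝ, 0 ≤ c' ∧ c' ≤ 1 - γ + γ * ν ∧ (1 - γ * ν) * c' = 1 - γ := by
    rcases ha.eq_or_lt with h | h
    · exact ⟨0, le_rfl, by linarith, by nlinarith⟩
    · refine ⟨(1 - γ) / (1 - γ * ν), div_nonneg (by linarith) ha, ?_, by field_simp⟩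
      rw [div_le_iff₀ h]
      nlinarith [mul_nonneg hgn (mul_nonneg g0 (sub_nonneg.mpr n1))]
  have hb0 : 0 ≤ γ * (1 - ν) * q := mul_nonneg (mul_nonneg g0 (by linarith)) q0
  have he1 : 0 ≤ γ * ν * (1 - q) := mul_nonneg hgn (by linarith)
  have he2 : 0 ≤ (1 - γ + γ * ν - c') * q := mul_nonneg (by linarith) q0
  have hβ : (((γ * (1 - ν) * q : ℝ) : ℂ) • Z).PosSemidef := hZ.1.smul (Complex.zero_le_real.mpr hb0)
  have hε : (((γ * ν * (1 - q) : ℝ) : ℂ) • X
      + (((1 - γ + γ * ν - c') * q : ℝ) : ℂ) • Z).PosSemidef :=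
    (hX.1.smul (Complex.zero_le_real.mpr he1)).add (hZ.1.smul (Complex.zero_le_real.mpr he2))
  have main := nci hβ hε (((√(1 - γ * ν) : ℝ) : ℂ) • x) (((√c' : ℝ) : ℂ) • z)
  have s1 : √(1 - γ * ν) * √c' = √(1 - γ) := by rw [← Real.sqrt_mul ha, hc2]
  have s2 : √c' * √(1 - γ * ν) = √(1 - γ) := by rw [mul_comm, s1]
  rw [smul_mul_smul_conj, smul_mul_smul_conj, smul_mul_smul_conj, smul_mul_smul_conj,
    ← e1, ← e2, ← e3, ← e4, s1, s2, Real.mul_self_sqrt ha, Real.mul_self_sqrt hc0,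
    smul_smul, smul_smul, ← Complex.ofReal_mul, ← Complex.ofReal_mul, trace_add, Complex.add_re,
    trace_re_smul _ hX, trace_re_smul _ hX, trace_re_smul _ hZ, trace_re_smul _ hZ,
    trace_re_smul _ hZ, ent_smul hX.1.isHermitian, ent_smul hZ.1.isHermitian,
    ent_smul hZ.1.isHermitian, hX.2, hZ.2, Complex.one_re] at main
  have mix := ent_mix hX hZ he1 he2
  have f1 : ((γ * (1 - ν) * q : ℝ) : ℂ) • Z + (((1 - γ * ν) * (1 - q) : ℝ) : ℂ) • X
      = ((1 - γ * ν : ℝ) : ℂ) • (((1 - q : ℝ) : ℂ) • X)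
        + ((γ * (1 - ν) : ℝ) : ℂ) • ((q : ℂ) • Z) := by
    push_cast
    module
  have f2 : ((γ * ν * (1 - q) : ℝ) : ℂ) • X + (((1 - γ + γ * ν - c') * q : ℝ) : ℂ) • Z
        + ((c' * q : ℝ) : ℂ) • Z
      = ((γ * ν : ℝ) : ℂ) • (((1 - q : ℝ) : ℂ) • X)
        + ((1 - γ + γ * ν : ℝ) : ℂ) • ((q : ℂ) • Z) := by
    push_cast
    module
  rw [f1, f2] at main
  refine le_trans ?_ main
  have g1 : γ * (1 - ν) * q + (1 - γ * ν) * (1 - q) + (γ * ν * (1 - q) + (1 - γ + γ * ν - c') * q)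
      + c' * q = 1 := by ring
  have g2 : (γ * (1 - ν) * q + (1 - γ * ν) * (1 - q) - (γ * ν * (1 - q) + (1 - γ + γ * ν - c') * q)
      - c' * q) ^ 2 + 4 * ((1 - γ * ν) * (1 - q)) * (c' * q)
      = (1 - 2 * ((1 - γ) * q + γ * ν)) ^ 2 + 4 * (1 - γ) * q * (1 - q) := by
    linear_combination (4 * q * (1 - q)) * hc2
  unfold Phi fmin
  rw [g1, g2, Real.binEntropy_eq_negMulLog_add_negMulLog_one_sub]
  generalize √((1 - 2 * ((1 - γ) * q + γ * ν)) ^ 2 + 4 * (1 - γ) * q * (1 - q)) = R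
  have g3 : 1 - (1 + R) / 2 = (1 - R) / 2 := by ring
  rw [g3]
  linarith

end Vale.Agent.P358
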