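import Vale.Agent.P358.Prof
import Vale.Agent.P358.Count

namespace Vale.Agent.P358

open Set MeasureTheory Matrix Real
open scoped ComplexOrder

set_option linter.unusedSectionVars false

noncomputable def cc (r m₁ m₂ b d : ℝ) : ℝ :=
  (UU r m₁ m₂ b d (d / b) * b + r * negMulLog m₁ + (1 - r) * negMulLog m₂ - negMulLog b
    - negMulLog d) / d

namespace Par

variable {r m₁ m₂ b d : ℝ}

theorem UU_top (h : Par r m₁ m₂ b d) :
    UU r m₁ m₂ b d (d / b) = r * log m₁ + (1 - r) * log m₂ - log b := by
  have hb := h.b0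
  have hd := h.d0
  have e1 : 1 + (m₁ - b) / d * (d / b) = m₁ / b := by field_simp; ring
  have e2 : 1 + (m₂ - b) / d * (d / b) = m₂ / b := by field_simp; ring
  unfold UU
  rw [e1, e2, log_div h.m1.ne' hb.ne', log_div h.m2.ne' hb.ne']
  ring

theorem UU_top_nonneg (h : Par r m₁ m₂ b d) : 0 ≤ UU r m₁ m₂ b d (d / b) := by
  have := h.UU_mono le_rfl h.T_pos.le le_rfl
  simpa [UU] using this

theorem cc_nonpos (h : Par r m₁ m₂ b d) : cc r m₁ m₂ b d ≤ 0 := by
  have hb := h.b0
  have hd := h.d0
  have c1 := strictConcaveOn_log_Ioi.concaveOn.2 (mem_Ioi.mpr h.m1)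
    (mem_Ioi.mpr h.m2) h.r0 (sub_nonneg.mpr h.r1) (by ring)
  have c2 := concaveOn_negMulLog.2 (mem_Ici.mpr h.m1.le)
    (mem_Ici.mpr h.m2.le) h.r0 (sub_nonneg.mpr h.r1) (by ring)
  simp only [smul_eq_mul, h.mean] at c1 c2
  have c3 : log d ≤ log (b + d) := log_le_log hd (by linarith)
  unfold cc
  refine div_nonpos_of_nonpos_of_nonneg ?_ hd.le
  rw [h.UU_top]
  have c4 := mul_le_mul_of_nonneg_right c1 hb.le
  have c5 := mul_le_mul_of_nonneg_left c3 hd.le
  unfold negMulLog at *
  nlinarith

theorem stair_integral (h : Par r m₁ m₂ b d) {x S : ℝ} (hx : 0 ≤ x) (hS : 0 < S)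
    (hxS : x * b / d ≤ S) {M : ℕ} (hM : 0 < M) :
    negMulLog x + x * (log S + 1) + x * cc r m₁ m₂ b d - d / b / M * S
      ≤ ∑ k ∈ Finset.range M, (prof r m₁ m₂ b d ((k + 1) * (d / b / M))
          - prof r m₁ m₂ b d (k * (d / b / M))) * min (x / ((k + 1) * (d / b / M))) S := by
  have hb := h.b0
  have hd := h.d0
  have hMr : (0 : ℝ) < M := Nat.cast_pos.mpr hM
  have hh : 0 < d / b / M := div_pos h.T_pos hMr
  have hMh : (M : ℝ) * (d / b / M) = d / b := by field_simp
  generalize d / b / M = η at hh hMh ⊢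
  rcases hx.eq_or_lt with hx0 | hx0
  · subst hx0
    simp only [negMulLog_zero, zero_mul, zero_div, min_eq_left hS.le, mul_zero,
      Finset.sum_const_zero]
    nlinarith
  have hy : ∀ k : ℕ, 0 < ((k : ℝ) + 1) * η := fun k => by positivity
  let F : ℝ → ℝ := fun s => ∑ k ∈ Finset.range M, (prof r m₁ m₂ b d ((k + 1) * η)
          - prof r m₁ m₂ b d (k * η)) * (if s < x / ((k + 1) * η) then 1 else 0)
  have hFi : ∀ a c, IntervalIntegrable F volume a c := by
    intro a c
    have := IntervalIntegrable.sum (μ := volume) (a := a) (b := c) (Finset.range M)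
      (f := fun k s => (prof r m₁ m₂ b d ((k + 1) * η)
          - prof r m₁ m₂ b d (k * η)) * (if s < x / ((k + 1) * η) then (1 : ℝ) else 0))
      (fun k _ => (ind_integrable _ a c).const_mul _)
    refine this.congr fun s _ => ?_
    simp only [F, Finset.sum_apply]
  have hFint : ∫ s in (0 : ℝ)..S, F s = ∑ k ∈ Finset.range M, (prof r m₁ m₂ b d ((k + 1) * η)
          - prof r m₁ m₂ b d (k * η)) * min (x / ((k + 1) * η)) S := by
    simp only [F]
    rw [intervalIntegral.integral_finsetSum (fun k _ => (ind_integrable _ 0 S).const_mul _)]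
    refine Finset.sum_congr rfl fun k _ => ?_
    rw [intervalIntegral.integral_const_mul, ind_integral _ hS.le,
      max_eq_right (le_min (div_pos hx0 (hy k)).le hS.le)]
  have hFlow : ∀ s, 0 < s → UU r m₁ m₂ b d (min (x / s) (d / b)) - η ≤ F s := by
    intro s hs
    have hb3 := (stair_bounds (u := prof r m₁ m₂ b d) (fun _ _ => h.mono) (fun _ _ => h.lip)
      h.zero hh.le (div_pos hx0 hs).le M).2.2
    rw [hMh, prof, min_eq_left (min_le_right _ _)] at hb3
    refine hb3.trans (le_of_eq ?_)
    unfold stair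
    refine Finset.sum_congr rfl fun k _ => ?_
    have : ((k : ℝ) + 1) * η < x / s ↔ s < x / ((k + 1) * η) := by
      rw [lt_div_iff₀ hs, lt_div_iff₀ (hy k), mul_comm]
    simp only [this]
  have hs0 : 0 < x * b / d := by positivity
  rw [← hFint, ← intervalIntegral.integral_add_adjacent_intervals (hFi 0 (x * b / d)) (hFi _ S)]
  have I1 : ∫ s in (0 : ℝ)..(x * b / d), (UU r m₁ m₂ b d (d / b) - η)
      ≤ ∫ s in (0 : ℝ)..(x * b / d), F s := by
    refine intervalIntegral.integral_mono_on_of_le_Ioo hs0.le intervalIntegrable_const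
      (hFi _ _) fun s hs => ?_
    have := hFlow s hs.1
    rwa [min_eq_right] at this
    rw [div_le_div_iff₀ hb hs.1]
    have := (lt_div_iff₀ hd).mp hs.2
    linarith
  have i1 := (log_shift_integrable ((m₁ - b) / d * x) (x * b / d) S).const_mul r
  have i2 := (log_shift_integrable ((m₂ - b) / d * x) (x * b / d) S).const_mul (1 - r)
  have i3 := log_shift_integrable 0 (x * b / d) S
  have I2 : ∫ s in (x * b / d)..S, (r * log (s + (m₁ - b) / d * x)
        + (1 - r) * log (s + (m₂ - b) / d * x) - log (s + 0) - η)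
      ≤ ∫ s in (x * b / d)..S, F s := by
    refine intervalIntegral.integral_mono_on_of_le_Ioo hxS
      (((i1.add i2).sub i3).sub intervalIntegrable_const) (hFi _ _) fun s hs => ?_
    have hs1 : 0 < s := hs0.trans hs.1
    have hle : x / s ≤ d / b := by
      rw [div_le_div_iff₀ hs1 hb]
      have := (div_lt_iff₀ hd).mp hs.1
      linarith
    have := hFlow s hs1
    rw [min_eq_left hle] at this
    refine le_trans (le_of_eq ?_) this
    have p1 := lin_pos h.m1 hb hd (div_pos hx0 hs1).le hle
    have p2 := lin_pos h.m2 hb hd (div_pos hx0 hs1).le hle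
    have e1 : s + (m₁ - b) / d * x = s * (1 + (m₁ - b) / d * (x / s)) := by field_simp
    have e2 : s + (m₂ - b) / d * x = s * (1 + (m₂ - b) / d * (x / s)) := by field_simp
    rw [e1, e2, log_mul hs1.ne' p1.ne', log_mul hs1.ne' p2.ne', add_zero, UU]
    ring
  rw [intervalIntegral.integral_sub ((i1.add i2).sub i3) intervalIntegrable_const,
    intervalIntegral.integral_sub (i1.add i2) i3, intervalIntegral.integral_add i1 i2,
    intervalIntegral.integral_const_mul, intervalIntegral.integral_const_mul,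
    log_shift_integral, log_shift_integral, log_shift_integral,
    intervalIntegral.integral_const] at I2
  rw [intervalIntegral.integral_const] at I1
  simp only [smul_eq_mul, add_zero, sub_zero] at I1 I2
  have f1 : x * b / d + (m₁ - b) / d * x = m₁ * x / d := by field_simp; ring
  have f2 : x * b / d + (m₂ - b) / d * x = m₂ * x / d := by field_simp; ring
  have q1 : 0 < m₁ * x / d := div_pos (mul_pos h.m1 hx0) hd
  have q2 : 0 < m₂ * x / d := div_pos (mul_pos h.m2 hx0) hd
  have t1 := mul_le_mul_of_nonneg_left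
    (mul_log_tangent hS (show 0 < S + (m₁ - b) / d * x by linarith)) h.r0
  have t2 := mul_le_mul_of_nonneg_left
    (mul_log_tangent hS (show 0 < S + (m₂ - b) / d * x by linarith)) (sub_nonneg.mpr h.r1)
  rw [f1, f2, log_div (mul_pos h.m1 hx0).ne' hd.ne', log_div (mul_pos h.m2 hx0).ne' hd.ne',
    log_div (mul_pos hx0 hb).ne' hd.ne', log_mul h.m1.ne' hx0.ne', log_mul h.m2.ne' hx0.ne',
    log_mul hx0.ne' hb.ne'] at I2
  have hm := h.mean_slope
  have hmean := h.mean
  have key : negMulLog x + x * (log S + 1) + x * cc r m₁ m₂ b d - η * S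
      = x * b / d * (UU r m₁ m₂ b d (d / b) - η)
        + (r * (S * log S + (S + (m₁ - b) / d * x - S) * (log S + 1)
            - m₁ * x / d * (log m₁ + log x - log d) - S + x * b / d)
          + (1 - r) * (S * log S + (S + (m₂ - b) / d * x - S) * (log S + 1)
            - m₂ * x / d * (log m₂ + log x - log d) - S + x * b / d)
          - (S * log S - x * b / d * (log x + log b - log d) - S + x * b / d)
          - (S - x * b / d) * η) := by
    unfold cc negMulLog
    have hdd : d = r * m₁ + (1 - r) * m₂ - b := by linarith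
    field_simp
    linear_combination (x * (log S + 1 - log x + log d)) * hdd
  rw [key]
  nlinarith

end Par

variable {n m : Type} [Fintype n] [DecidableEq n] [Fintype m] [DecidableEq m]

theorem sum_min_ge {β N : Matrix n n ℂ} (hβ : β.PosSemidef) (hN : N.PosSemidef) {y : ℝ}
    (hy : 0 < y) (S : ℝ) {U : Matrix n n ℂ} {a : n → ℝ}
    (hA : Dg (((y⁻¹ : ℝ) : ℂ) • N - β) U a) {W : Matrix n n ℂ} {x : n → ℝ} (hW : Dg N W x) :
    ∑ j, min (x j / y) S - β.trace.re ≤ ∑ j, min (a j) S := by
  have hc : ConcaveOn ℝ (Ici 0) (fun t : ℝ => min (t / y) S) := by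
    refine ⟨convex_Ici 0, fun u _ v _ c e hc he hce => ?_⟩
    simp only [smul_eq_mul]
    have u1 := mul_le_mul_of_nonneg_left (min_le_left (u / y) S) hc
    have u2 := mul_le_mul_of_nonneg_left (min_le_right (u / y) S) hc
    have v1 := mul_le_mul_of_nonneg_left (min_le_left (v / y) S) he
    have v2 := mul_le_mul_of_nonneg_left (min_le_right (v / y) S) he
    refine le_min ?_ ?_
    · have : (c * u + e * v) / y = c * (u / y) + e * (v / y) := by ring
      linarith
    · have : c * S + e * S = S := by rw [← add_mul, hce, one_mul]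
      linarith
  have hj := hW.jensen hc (fun j => hW.nonneg hN j) hA.l hA.r
  rw [← sum_re_conj β hA.r, sub_le_iff_le_add, ← Finset.sum_add_distrib]
  refine hj.trans (Finset.sum_le_sum fun j _ => ?_)
  have e : a j = ((Uᴴ * N * U) j j).re / y - ((Uᴴ * β * U) j j).re := by
    rw [← hA.re_conj j, Matrix.mul_sub, Matrix.sub_mul, Matrix.mul_smul, Matrix.smul_mul,
      Matrix.sub_apply, Matrix.smul_apply, smul_eq_mul, Complex.sub_re, Complex.re_ofReal_mul]
    ring
  have hb := re_conj_nonneg hβ U j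
  rw [e]
  rcases le_total (((Uᴴ * N * U) j j).re / y - ((Uᴴ * β * U) j j).re) S with h1 | h1
  · rw [min_eq_left h1]
    linarith [min_le_left (((Uᴴ * N * U) j j).re / y) S]
  · rw [min_eq_right h1]
    linarith [min_le_right (((Uᴴ * N * U) j j).re / y) S]

theorem layer {r m₁ m₂ b d : ℝ} (h : Par r m₁ m₂ b d) {β : Matrix n n ℂ} (hβ : β.PosSemidef)
    (D : Matrix n m ℂ) (hb : β.trace.re ≤ b) (hd : (D * Dᴴ).trace.re ≤ d) {S : ℝ} (hS : b ≤ S)
    {M : ℕ} (hM : 0 < M) :
    ∃ l : ℝ → ℝ, IntervalIntegrable l volume 0 S ∧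
      (∀ s, 0 < s → l s ≤ trf (prof r m₁ m₂ b d) (Dᴴ * ((s : ℂ) • (1 : Matrix n n ℂ) + β)⁻¹ * D)) ∧
      ent (D * Dᴴ) + (D * Dᴴ).trace.re * (log S + 1)
        + (r * negMulLog m₁ + (1 - r) * negMulLog m₂ - negMulLog b - negMulLog d)
        - Fintype.card n * (d / b / M * S) ≤ ∫ s in (0 : ℝ)..S, l s := by
  have hN := posSemidef_self_mul_conjTranspose D
  have hS0 : 0 < S := h.b0.trans_le hS
  have hMr : (0 : ℝ) < M := Nat.cast_pos.mpr hM
  have hh : 0 < d / b / M := div_pos h.T_pos hMr
  have hMh : (M : ℝ) * (d / b / M) = d / b := by field_simp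
  obtain ⟨W, x, hW⟩ := exists_dg hN.isHermitian
  have hx0 : ∀ j, 0 ≤ x j := fun j => hW.nonneg hN j
  have hxd : ∀ j, x j * b / d ≤ S := by
    intro j
    have h1 : x j ≤ d := by
      refine le_trans ?_ hd
      rw [hW.trace_re]
      exact Finset.single_le_sum (fun i _ => hx0 i) (Finset.mem_univ j)
    rw [div_le_iff₀ h.d0]
    have := h.b0
    have := h.d0
    nlinarith
  have hst := fun j => h.stair_integral (hx0 j) hS0 (hxd j) hM
  generalize d / b / M = η at hh hMh hst ⊢
  have hy : ∀ k : ℕ, 0 < ((k : ℝ) + 1) * η := fun k => by positivity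
  have hA : ∀ k : ℕ, ((((((k : ℝ) + 1) * η)⁻¹ : ℝ) : ℂ) • (D * Dᴴ) - β).IsHermitian := by
    intro k
    refine IsHermitian.sub ?_ hβ.isHermitian
    exact (hN.smul (Complex.zero_le_real.mpr (inv_pos.mpr (hy k)).le)).isHermitian
  choose U a hU using fun k => exists_dg (hA k)
  have ha0 : ∀ k : ℕ, 0 ≤ prof r m₁ m₂ b d ((k + 1) * η) - prof r m₁ m₂ b d (k * η) := by
    intro k
    exact sub_nonneg.mpr (h.mono (by positivity) (by linarith))
  have hi : ∀ k : ℕ, IntervalIntegrable
      (fun s : ℝ => ∑ j, if s < a k j then (1 : ℝ) else 0) volume 0 S := by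
    intro k
    have := IntervalIntegrable.sum (μ := volume) (a := 0) (b := S) Finset.univ
      (f := fun j s => if s < a k j then (1 : ℝ) else 0) (fun j _ => ind_integrable _ 0 S)
    refine this.congr fun s _ => ?_
    simp only [Finset.sum_apply]
  refine ⟨fun s => ∑ k ∈ Finset.range M, (prof r m₁ m₂ b d ((k + 1) * η)
      - prof r m₁ m₂ b d (k * η)) * ∑ j, if s < a k j then (1 : ℝ) else 0, ?_, ?_, ?_⟩
  · have := IntervalIntegrable.sum (μ := volume) (a := 0) (b := S) (Finset.range M)
      (f := fun k s => (prof r m₁ m₂ b d ((k + 1) * η)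
        - prof r m₁ m₂ b d (k * η)) * ∑ j, if s < a k j then (1 : ℝ) else 0)
      (fun k _ => (hi k).const_mul _)
    refine this.congr fun s _ => ?_
    simp only [Finset.sum_apply]
  · intro s hs
    have hP := posSemidef_resolvent hβ D hs
    obtain ⟨V, p, hV⟩ := exists_dg hP.isHermitian
    rw [hV.trf_eq]
    calc _ ≤ ∑ k ∈ Finset.range M, (prof r m₁ m₂ b d ((k + 1) * η)
          - prof r m₁ m₂ b d (k * η)) * ∑ i, if ((k : ℝ) + 1) * η < p i then (1 : ℝ) else 0 := by
          refine Finset.sum_le_sum fun k _ => mul_le_mul_of_nonneg_left ?_ (ha0 k)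
          rw [Finset.sum_boole, Finset.sum_boole]
          exact Nat.cast_le.mpr (count_resolvent hβ D hs (hy k) (hU k) hV)
      _ = ∑ i, stair (prof r m₁ m₂ b d) η M (p i) := by
          simp only [stair, Finset.mul_sum]
          exact Finset.sum_comm
      _ ≤ _ := by
          refine Finset.sum_le_sum fun i _ => ?_
          have hp := hV.nonneg hP i
          refine (stair_bounds (u := prof r m₁ m₂ b d) (fun _ _ => h.mono) (fun _ _ => h.lip)
            h.zero hh.le hp M).1.trans ?_
          exact h.mono (le_min hp (by positivity)) (min_le_left _ _)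
  · rw [intervalIntegral.integral_finsetSum (fun k _ => (hi k).const_mul _)]
    have hsumA : ∑ k ∈ Finset.range M, (prof r m₁ m₂ b d ((k + 1) * η)
        - prof r m₁ m₂ b d (k * η)) = UU r m₁ m₂ b d (d / b) := by
      have := Finset.sum_range_sub (fun k : ℕ => prof r m₁ m₂ b d (k * η)) M
      push_cast at this
      rw [this, hMh, zero_mul, h.zero, sub_zero, prof, min_self]
    have h1 : ∑ k ∈ Finset.range M, (prof r m₁ m₂ b d ((k + 1) * η)
          - prof r m₁ m₂ b d (k * η)) * (∑ j, min (x j / ((k + 1) * η)) S - β.trace.re)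
        ≤ ∑ k ∈ Finset.range M, ∫ s in (0 : ℝ)..S, (prof r m₁ m₂ b d ((k + 1) * η)
          - prof r m₁ m₂ b d (k * η)) * ∑ j, if s < a k j then (1 : ℝ) else 0 := by
      refine Finset.sum_le_sum fun k _ => ?_
      rw [intervalIntegral.integral_const_mul,
        intervalIntegral.integral_finsetSum (fun j _ => ind_integrable _ 0 S)]
      refine mul_le_mul_of_nonneg_left ?_ (ha0 k)
      refine (sum_min_ge hβ hN (hy k) S (hU k) hW).trans (Finset.sum_le_sum fun j _ => ?_)
      rw [ind_integral _ hS0.le]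
      exact le_max_right _ _
    refine le_trans ?_ h1
    have h2 : ∑ k ∈ Finset.range M, (prof r m₁ m₂ b d ((k + 1) * η)
          - prof r m₁ m₂ b d (k * η)) * (∑ j, min (x j / ((k + 1) * η)) S - β.trace.re)
        = ∑ j, ∑ k ∈ Finset.range M, (prof r m₁ m₂ b d ((k + 1) * η)
          - prof r m₁ m₂ b d (k * η)) * min (x j / ((k + 1) * η)) S
          - UU r m₁ m₂ b d (d / b) * β.trace.re := by
      rw [← hsumA, Finset.sum_comm, Finset.sum_mul, ← Finset.sum_sub_distrib]
      refine Finset.sum_congr rfl fun k _ => ?_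
      rw [mul_sub, Finset.mul_sum]
    have h3 := Finset.sum_le_sum fun j (_ : j ∈ Finset.univ) => hst j
    rw [h2]
    rw [Finset.sum_sub_distrib, Finset.sum_add_distrib, Finset.sum_add_distrib, ← Finset.sum_mul,
      ← Finset.sum_mul, ← hW.ent_eq, ← hW.trace_re, Finset.sum_const, Finset.card_univ,
      nsmul_eq_mul] at h3
    have h4 := mul_le_mul_of_nonneg_left hb h.UU_top_nonneg
    have h5 := mul_le_mul_of_nonpos_right hd h.cc_nonpos
    have h6 : d * cc r m₁ m₂ b d = UU r m₁ m₂ b d (d / b) * b + r * negMulLog m₁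
        + (1 - r) * negMulLog m₂ - negMulLog b - negMulLog d := by
      unfold cc
      have := h.d0
      field_simp
    linarith

end Vale.Agent.P358
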