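import Vale.Agent.P358.Layer

namespace Vale.Agent.P358

open Set MeasureTheory Matrix Real Filter Topology
open scoped ComplexOrder

set_option linter.unusedSectionVars false

variable {n m : Type} [Fintype n] [DecidableEq n] [Fintype m] [DecidableEq m]

theorem Dg.fromBlocks {A U B V : Matrix n n ℂ} {x y : n → ℝ} (hA : Dg A U x) (hB : Dg B V y) :
    Dg (fromBlocks A 0 0 B) (fromBlocks U 0 0 V) (Sum.elim x y) := by
  refine ⟨?_, ?_, ?_⟩
  · simp [fromBlocks_conjTranspose, fromBlocks_multiply, hA.l, hB.l]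
  · simp [fromBlocks_conjTranspose, fromBlocks_multiply, hA.r, hB.r]
  · have e : (diagonal fun i => ((Sum.elim x y i : ℝ) : ℂ))
        = Matrix.fromBlocks (diagonal fun i => (x i : ℂ)) 0 0 (diagonal fun i => (y i : ℂ)) := by
      rw [fromBlocks_diagonal]
      congr 1
      funext i
      cases i <;> rfl
    rw [e, fromBlocks_conjTranspose, fromBlocks_multiply, fromBlocks_multiply]
    simp only [Matrix.mul_zero, Matrix.zero_mul, add_zero, zero_add, conjTranspose_zero]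
    rw [← hA.eq, ← hB.eq]

theorem posSemidef_blockDiag {A B : Matrix n n ℂ} (hA : A.PosSemidef) (hB : B.PosSemidef) :
    (fromBlocks A 0 0 B).PosSemidef := by
  obtain ⟨U, x, h1⟩ := exists_dg hA.isHermitian
  obtain ⟨V, y, h2⟩ := exists_dg hB.isHermitian
  refine (h1.fromBlocks h2).posSemidef fun i => ?_
  cases i with
  | inl i => exact h1.nonneg hA i
  | inr i => exact h2.nonneg hB i

theorem omega_eq (β ε : Matrix n n ℂ) (D C : Matrix n m ℂ) :
    fromBlocks (β + D * Dᴴ) (D * Cᴴ) (C * Dᴴ) (ε + C * Cᴴ)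
      = fromBlocks β 0 0 ε + fromRows D C * (fromRows D C)ᴴ := by
  rw [conjTranspose_fromRows_eq_fromCols_conjTranspose, fromRows_mul_fromCols, fromBlocks_add]
  simp

theorem omega_psd {β ε : Matrix n n ℂ} (hβ : β.PosSemidef) (hε : ε.PosSemidef)
    (D C : Matrix n m ℂ) :
    (fromBlocks (β + D * Dᴴ) (D * Cᴴ) (C * Dᴴ) (ε + C * Cᴴ)).PosSemidef := by
  rw [omega_eq]
  exact (posSemidef_blockDiag hβ hε).add (posSemidef_self_mul_conjTranspose _)

theorem omega_det {β ε : Matrix n n ℂ} (hβ : β.PosSemidef) (hε : ε.PosSemidef)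
    (D C : Matrix n m ℂ) {s : ℝ} (hs : 0 < s) :
    ((s : ℂ) • (1 : Matrix (n ⊕ n) (n ⊕ n) ℂ)
        + fromBlocks (β + D * Dᴴ) (D * Cᴴ) (C * Dᴴ) (ε + C * Cᴴ)).det
      = ((s : ℂ) • (1 : Matrix n n ℂ) + β).det * ((s : ℂ) • (1 : Matrix n n ℂ) + ε).det
        * (((1 : ℝ) : ℂ) • (1 : Matrix m m ℂ) + (Dᴴ * ((s : ℂ) • (1 : Matrix n n ℂ) + β)⁻¹ * D
          + Cᴴ * ((s : ℂ) • (1 : Matrix n n ℂ) + ε)⁻¹ * C)).det := by
  have h1 := posDef_shift hβ hs
  have h2 := posDef_shift hε hs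
  have e : (s : ℂ) • (1 : Matrix (n ⊕ n) (n ⊕ n) ℂ) + fromBlocks β 0 0 ε
      = fromBlocks ((s : ℂ) • (1 : Matrix n n ℂ) + β) 0 0 ((s : ℂ) • (1 : Matrix n n ℂ) + ε) := by
    rw [← fromBlocks_one, fromBlocks_smul, fromBlocks_add]
    simp
  rw [omega_eq, ← add_assoc, e]
  generalize (s : ℂ) • (1 : Matrix n n ℂ) + β = M₁ at h1 ⊢
  generalize (s : ℂ) • (1 : Matrix n n ℂ) + ε = M₂ at h2 ⊢
  have d1 : IsUnit M₁.det := (isUnit_iff_isUnit_det _).mp h1.isUnit
  have d2 : IsUnit M₂.det := (isUnit_iff_isUnit_det _).mp h2.isUnit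
  have d3 : (fromBlocks M₁ 0 0 M₂).det = M₁.det * M₂.det := det_fromBlocks_zero₂₁ _ _ _
  have hinv : (fromBlocks M₁ 0 0 M₂)⁻¹ = fromBlocks M₁⁻¹ 0 0 M₂⁻¹ := by
    apply inv_eq_right_inv
    rw [fromBlocks_multiply]
    simp [mul_nonsing_inv _ d1, mul_nonsing_inv _ d2]
  rw [det_add_mul _ _ (by rw [d3]; exact d1.mul d2), d3, hinv,
    conjTranspose_fromRows_eq_fromCols_conjTranspose, fromCols_mul_fromBlocks,
    fromCols_mul_fromRows]
  simp

theorem pointwise {r m₁ m₂ b d e k : ℝ} (h : Par r m₁ m₂ b d) (h' : Par (1 - r) m₁ m₂ e k)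
    (hdet : m₁ * m₂ = b * e + b * k + d * e) {β ε : Matrix n n ℂ} (hβ : β.PosSemidef)
    (hε : ε.PosSemidef) (D C : Matrix n m ℂ) {s : ℝ} (hs : 0 < s)
    {U₀ : Matrix (n ⊕ n) (n ⊕ n) ℂ} {w : n ⊕ n → ℝ}
    (hw : Dg (fromBlocks (β + D * Dᴴ) (D * Cᴴ) (C * Dᴴ) (ε + C * Cᴴ)) U₀ w)
    {U₁ U₂ : Matrix n n ℂ} {x y : n → ℝ} (hx : Dg β U₁ x) (hy : Dg ε U₂ y) :
    trf (prof r m₁ m₂ b d) (Dᴴ * ((s : ℂ) • (1 : Matrix n n ℂ) + β)⁻¹ * D)
      + trf (prof (1 - r) m₁ m₂ e k) (Cᴴ * ((s : ℂ) • (1 : Matrix n n ℂ) + ε)⁻¹ * C)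
      ≤ ∑ i, log (s + w i) - ∑ i, log (s + x i) - ∑ i, log (s + y i) := by
  have hP := posSemidef_resolvent hβ D hs
  have hQ := posSemidef_resolvent hε C hs
  have hd := omega_det hβ hε D C hs
  generalize Dᴴ * ((s : ℂ) • (1 : Matrix n n ℂ) + β)⁻¹ * D = P at hP hd ⊢
  generalize Cᴴ * ((s : ℂ) • (1 : Matrix n n ℂ) + ε)⁻¹ * C = Q at hQ hd ⊢
  obtain ⟨V, z, hz⟩ := exists_dg (hP.add hQ).isHermitian
  rw [(hw.shift s).det_eq, (hx.shift s).det_eq, (hy.shift s).det_eq, (hz.shift 1).det_eq,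
    ← Complex.ofReal_mul, ← Complex.ofReal_mul, Complex.ofReal_inj] at hd
  have pw : ∀ i, 0 < s + w i := fun i =>
    add_pos_of_pos_of_nonneg hs (hw.nonneg (omega_psd hβ hε D C) i)
  have px : ∀ i, 0 < s + x i := fun i => add_pos_of_pos_of_nonneg hs (hx.nonneg hβ i)
  have py : ∀ i, 0 < s + y i := fun i => add_pos_of_pos_of_nonneg hs (hy.nonneg hε i)
  have pz : ∀ i, 0 < 1 + z i := fun i =>
    add_pos_of_pos_of_nonneg one_pos (hz.nonneg (hP.add hQ) i)
  have hl := congrArg log hd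
  rw [log_mul (mul_pos (Finset.prod_pos fun i _ => px i) (Finset.prod_pos fun i _ => py i)).ne'
      (Finset.prod_pos fun i _ => pz i).ne',
    log_mul (Finset.prod_pos fun i _ => px i).ne' (Finset.prod_pos fun i _ => py i).ne',
    log_prod (fun i _ => (pw i).ne'), log_prod (fun i _ => (px i).ne'),
    log_prod (fun i _ => (py i).ne'), log_prod (fun i _ => (pz i).ne')] at hl
  have j1 := trf_le_diag hP h.concaveOn hz.l hz.r
  have j2 := trf_le_diag hQ h'.concaveOn hz.l hz.r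
  have j3 : ∑ i, prof r m₁ m₂ b d ((Vᴴ * P * V) i i).re
      + ∑ i, prof (1 - r) m₁ m₂ e k ((Vᴴ * Q * V) i i).re ≤ ∑ i, log (1 + z i) := by
    rw [← Finset.sum_add_distrib]
    refine Finset.sum_le_sum fun i _ => ?_
    have : 1 + z i = 1 + ((Vᴴ * P * V) i i).re + ((Vᴴ * Q * V) i i).re := by
      rw [← hz.re_conj i, Matrix.mul_add, Matrix.add_mul, Matrix.add_apply, Complex.add_re]
      ring
    rw [this]
    exact prof_add_le h h' hdet (re_conj_nonneg hP V i) (re_conj_nonneg hQ V i)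
  linarith

theorem sum_log_integrable {ι : Type} [Fintype ι] (w : ι → ℝ) (S : ℝ) :
    IntervalIntegrable (fun s => ∑ i, log (s + w i)) volume 0 S := by
  have := IntervalIntegrable.sum (μ := volume) (a := 0) (b := S) Finset.univ
    (f := fun i s => log (s + w i)) (fun i _ => log_shift_integrable _ 0 S)
  refine this.congr fun s _ => ?_
  simp only [Finset.sum_apply]

theorem sum_log_lower {ι : Type} [Fintype ι] {w : ι → ℝ} (hw : ∀ i, 0 ≤ w i) {S : ℝ}
    (hS : 0 < S) :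
    ∑ i, negMulLog (w i) + (∑ i, w i) * (log S + 1) + Fintype.card ι * (S * log S - S)
      ≤ ∫ s in (0 : ℝ)..S, ∑ i, log (s + w i) := by
  rw [intervalIntegral.integral_finsetSum (fun i _ => log_shift_integrable _ 0 S), Finset.sum_mul,
    ← Finset.card_univ, ← nsmul_eq_mul, ← Finset.sum_const, ← Finset.sum_add_distrib,
    ← Finset.sum_add_distrib]
  refine Finset.sum_le_sum fun i _ => ?_
  rw [log_shift_integral, negMulLog, zero_add]
  have := mul_log_tangent hS (show 0 < S + w i by linarith [hw i])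
  linarith

theorem sum_log_upper {ι : Type} [Fintype ι] {w : ι → ℝ} (hw : ∀ i, 0 ≤ w i) {S : ℝ}
    (hS : 0 < S) :
    ∫ s in (0 : ℝ)..S, ∑ i, log (s + w i)
      ≤ ∑ i, negMulLog (w i) + (∑ i, w i) * (log S + 1) + Fintype.card ι * (S * log S - S)
        + (∑ i, w i ^ 2) / S := by
  rw [intervalIntegral.integral_finsetSum (fun i _ => log_shift_integrable _ 0 S), Finset.sum_mul,
    ← Finset.card_univ, ← nsmul_eq_mul, ← Finset.sum_const, ← Finset.sum_add_distrib,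
    ← Finset.sum_add_distrib, Finset.sum_div, ← Finset.sum_add_distrib]
  refine Finset.sum_le_sum fun i _ => ?_
  rw [log_shift_integral, negMulLog, zero_add]
  have := mul_log_upper hS (hw i)
  linarith

theorem le_of_forall_nat_sub_div {A B c : ℝ} (N : ℕ) (h : ∀ M : ℕ, N ≤ M → A - c / M ≤ B) :
    A ≤ B := by
  have t : Tendsto (fun M : ℕ => A - c / M) atTop (𝓝 (A - 0)) :=
    tendsto_const_nhds.sub (tendsto_const_div_atTop_nhds_zero_nat c)
  rw [sub_zero] at t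
  exact le_of_tendsto t (eventually_atTop.mpr ⟨N, h⟩)

theorem trace_omega (β ε : Matrix n n ℂ) (D C : Matrix n m ℂ) :
    (fromBlocks (β + D * Dᴴ) (D * Cᴴ) (C * Dᴴ) (ε + C * Cᴴ)).trace.re
      = β.trace.re + (D * Dᴴ).trace.re + ε.trace.re + (C * Cᴴ).trace.re := by
  have : (fromBlocks (β + D * Dᴴ) (D * Cᴴ) (C * Dᴴ) (ε + C * Cᴴ)).trace
      = (β + D * Dᴴ).trace + (ε + C * Cᴴ).trace := by
    simp [trace, Fintype.sum_sum_type]
  rw [this, trace_add, trace_add]
  simp only [Complex.add_re]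
  ring

/-- entropic norm-compression inequality for the path with four edges -/
theorem nci_par {r m₁ m₂ b d e k : ℝ} (h : Par r m₁ m₂ b d) (h' : Par (1 - r) m₁ m₂ e k)
    (hdet : m₁ * m₂ = b * e + b * k + d * e) {β ε : Matrix n n ℂ} (hβ : β.PosSemidef)
    (hε : ε.PosSemidef) (D C : Matrix n m ℂ) (hb : β.trace.re ≤ b) (hd : (D * Dᴴ).trace.re ≤ d)
    (he : ε.trace.re ≤ e) (hk : (C * Cᴴ).trace.re ≤ k) :
    ent β + ent ε + ent (D * Dᴴ) + ent (C * Cᴴ)
        + (negMulLog m₁ + negMulLog m₂ - negMulLog b - negMulLog d - negMulLog e - negMulLog k)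
      ≤ ent (fromBlocks (β + D * Dᴴ) (D * Cᴴ) (C * Dᴴ) (ε + C * Cᴴ)) := by
  have hω := omega_psd hβ hε D C
  obtain ⟨U₀, w, hw⟩ := exists_dg hω.isHermitian
  obtain ⟨U₁, x, hx⟩ := exists_dg hβ.isHermitian
  obtain ⟨U₂, y, hy⟩ := exists_dg hε.isHermitian
  obtain ⟨N, hN⟩ := exists_nat_ge (max b e)
  refine le_of_forall_nat_sub_div (c := ∑ i, w i ^ 2) N fun S hS => ?_
  have hSN : (N : ℝ) ≤ S := Nat.cast_le.mpr hS
  have hbS : b ≤ S := (le_max_left _ _).trans (hN.trans hSN)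
  have heS : e ≤ S := (le_max_right _ _).trans (hN.trans hSN)
  generalize (S : ℝ) = S at hbS heS
  have hS0 : 0 < S := h.b0.trans_le hbS
  refine le_of_forall_nat_sub_div
    (c := Fintype.card n * (d / b * S) + Fintype.card n * (k / e * S)) 1 fun M hM => ?_
  obtain ⟨l₁, i1, p1, q1⟩ := layer h hβ D hb hd hbS hM
  obtain ⟨l₂, i2, p2, q2⟩ := layer h' hε C he hk heS hM
  have hint : ∫ s in (0 : ℝ)..S, (l₁ s + l₂ s) ≤ ∫ s in (0 : ℝ)..S,
      (∑ i, log (s + w i) - ∑ i, log (s + x i) - ∑ i, log (s + y i)) := by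
    refine intervalIntegral.integral_mono_on_of_le_Ioo hS0.le (i1.add i2)
      (((sum_log_integrable w S).sub (sum_log_integrable x S)).sub (sum_log_integrable y S))
      fun s hs => ?_
    exact (add_le_add (p1 s hs.1) (p2 s hs.1)).trans
      (pointwise h h' hdet hβ hε D C hs.1 hw hx hy)
  rw [intervalIntegral.integral_add i1 i2, intervalIntegral.integral_sub
      ((sum_log_integrable w S).sub (sum_log_integrable x S)) (sum_log_integrable y S),
    intervalIntegral.integral_sub (sum_log_integrable w S) (sum_log_integrable x S)] at hint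
  have uw := sum_log_upper (fun i => hw.nonneg hω i) hS0
  have lx := sum_log_lower (fun i => hx.nonneg hβ i) hS0
  have ly := sum_log_lower (fun i => hy.nonneg hε i) hS0
  rw [← hw.ent_eq, ← hw.trace_re, trace_omega, Fintype.card_sum, Nat.cast_add] at uw
  rw [← hx.ent_eq, ← hx.trace_re] at lx
  rw [← hy.ent_eq, ← hy.trace_re] at ly
  have e1 : (Fintype.card n * (d / b * S) + Fintype.card n * (k / e * S)) / (M : ℝ)
      = Fintype.card n * (d / b / M * S) + Fintype.card n * (k / e / M * S) := by ring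
  rw [e1]
  linarith

end Vale.Agent.P358
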