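import Mathlib

namespace Vale.Agent.P358

open Set MeasureTheory

/-- parameters of a profile -/
structure Par (r m₁ m₂ b d : ℝ) : Prop where
  r0 : 0 ≤ r
  r1 : r ≤ 1
  m1 : 0 < m₁
  m2 : 0 < m₂
  b0 : 0 < b
  d0 : 0 < d
  mean : r * m₁ + (1 - r) * m₂ = b + d
  cross : -(d * b) ≤ (m₁ - b) * (m₂ - b)

noncomputable def UU (r m₁ m₂ b d p : ℝ) : ℝ :=
  r * Real.log (1 + (m₁ - b) / d * p) + (1 - r) * Real.log (1 + (m₂ - b) / d * p)

noncomputable def UD (r m₁ m₂ b d p : ℝ) : ℝ :=
  r * ((m₁ - b) / d / (1 + (m₁ - b) / d * p)) + (1 - r) * ((m₂ - b) / d / (1 + (m₂ - b) / d * p))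

noncomputable def prof (r m₁ m₂ b d p : ℝ) : ℝ := UU r m₁ m₂ b d (min p (d / b))

theorem lin_pos {m b d p : ℝ} (hm : 0 < m) (hb : 0 < b) (hd : 0 < d) (hp : 0 ≤ p)
    (hp1 : p ≤ d / b) : 0 < 1 + (m - b) / d * p := by
  have h1 : p * b ≤ d := (le_div_iff₀ hb).mp hp1
  have e : 1 + (m - b) / d * p = (d - p * b + m * p) / d := by field_simp; ring
  rw [e]
  refine div_pos ?_ hd
  rcases hp.eq_or_lt with h | h
  · subst h; simpa using hd
  · have := mul_pos hm h
    linarith

theorem log_tangent {x y : ℝ} (hx : 0 < x) (hy : 0 < y) :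
    Real.log y ≤ Real.log x + (y - x) / x := by
  have h := Real.log_le_sub_one_of_pos (div_pos hy hx)
  rw [Real.log_div hy.ne' hx.ne'] at h
  have e : (y - x) / x = y / x - 1 := by field_simp
  linarith

namespace Par

variable {r m₁ m₂ b d : ℝ}

theorem tangent (h : Par r m₁ m₂ b d) {p p' : ℝ} (hp : 0 ≤ p) (hp1 : p ≤ d / b) (hp' : 0 ≤ p')
    (hp1' : p' ≤ d / b) :
    UU r m₁ m₂ b d p' ≤ UU r m₁ m₂ b d p + UD r m₁ m₂ b d p * (p' - p) := by
  have t1 := log_tangent (lin_pos h.m1 h.b0 h.d0 hp hp1) (lin_pos h.m1 h.b0 h.d0 hp' hp1')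
  have t2 := log_tangent (lin_pos h.m2 h.b0 h.d0 hp hp1) (lin_pos h.m2 h.b0 h.d0 hp' hp1')
  have s1 := mul_le_mul_of_nonneg_left t1 h.r0
  have s2 := mul_le_mul_of_nonneg_left t2 (sub_nonneg.mpr h.r1)
  unfold UU UD
  have e1 : (1 + (m₁ - b) / d * p' - (1 + (m₁ - b) / d * p)) / (1 + (m₁ - b) / d * p)
      = (m₁ - b) / d / (1 + (m₁ - b) / d * p) * (p' - p) := by ring
  have e2 : (1 + (m₂ - b) / d * p' - (1 + (m₂ - b) / d * p)) / (1 + (m₂ - b) / d * p)
      = (m₂ - b) / d / (1 + (m₂ - b) / d * p) * (p' - p) := by ring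
  rw [e1] at s1
  rw [e2] at s2
  nlinarith

theorem mean_slope (h : Par r m₁ m₂ b d) :
    r * ((m₁ - b) / d) + (1 - r) * ((m₂ - b) / d) = 1 := by
  have := h.mean
  have hd := h.d0
  field_simp
  linarith

theorem UD_nonneg (h : Par r m₁ m₂ b d) {p : ℝ} (hp : 0 ≤ p) (hp1 : p ≤ d / b) :
    0 ≤ UD r m₁ m₂ b d p := by
  have p1 := lin_pos h.m1 h.b0 h.d0 hp hp1
  have p2 := lin_pos h.m2 h.b0 h.d0 hp hp1
  have hm := h.mean_slope
  have hd := h.d0
  have hc : -(b / d) ≤ (m₁ - b) / d * ((m₂ - b) / d) := by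
    have e1 : (m₁ - b) / d * ((m₂ - b) / d) = ((m₁ - b) * (m₂ - b)) / (d * d) := by ring
    have e2 : -(b / d) = (-(d * b)) / (d * d) := by field_simp
    rw [e1, e2]
    exact div_le_div_of_nonneg_right h.cross (mul_pos hd hd).le
  have hpb : p * (b / d) ≤ 1 := by
    have h1 : p * b ≤ d := (le_div_iff₀ h.b0).mp hp1
    rw [← mul_div_assoc, div_le_one hd]
    exact h1
  unfold UD
  generalize (m₁ - b) / d = α at *
  generalize (m₂ - b) / d = β at *
  have e : r * (α / (1 + α * p)) + (1 - r) * (β / (1 + β * p))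
      = (r * α + (1 - r) * β + α * β * p) / ((1 + α * p) * (1 + β * p)) := by
    rw [← mul_div_assoc, ← mul_div_assoc, div_add_div _ _ p1.ne' p2.ne']
    congr 1
    ring
  rw [e, hm]
  refine div_nonneg ?_ (mul_pos p1 p2).le
  nlinarith

theorem UD_le_one (h : Par r m₁ m₂ b d) {p : ℝ} (hp : 0 ≤ p) (hp1 : p ≤ d / b) :
    UD r m₁ m₂ b d p ≤ 1 := by
  have p1 := lin_pos h.m1 h.b0 h.d0 hp hp1
  have p2 := lin_pos h.m2 h.b0 h.d0 hp hp1
  have hm := h.mean_slope
  unfold UD
  generalize (m₁ - b) / d = α at *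
  generalize (m₂ - b) / d = β at *
  have a1 : α / (1 + α * p) ≤ α := by
    rw [div_le_iff₀ p1]
    nlinarith [mul_nonneg (mul_self_nonneg α) hp]
  have a2 : β / (1 + β * p) ≤ β := by
    rw [div_le_iff₀ p2]
    nlinarith [mul_nonneg (mul_self_nonneg β) hp]
  have s1 := mul_le_mul_of_nonneg_left a1 h.r0
  have s2 := mul_le_mul_of_nonneg_left a2 (sub_nonneg.mpr h.r1)
  linarith

theorem T_pos (h : Par r m₁ m₂ b d) : 0 < d / b := div_pos h.d0 h.b0

theorem UU_mono (h : Par r m₁ m₂ b d) {p p' : ℝ} (hp : 0 ≤ p) (hpp : p ≤ p') (hp1' : p' ≤ d / b) :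
    UU r m₁ m₂ b d p ≤ UU r m₁ m₂ b d p' := by
  have t := h.tangent (hp.trans hpp) hp1' hp (hpp.trans hp1')
  have := h.UD_nonneg (hp.trans hpp) hp1'
  nlinarith

theorem mono (h : Par r m₁ m₂ b d) {p p' : ℝ} (hp : 0 ≤ p) (hpp : p ≤ p') :
    prof r m₁ m₂ b d p ≤ prof r m₁ m₂ b d p' :=
  h.UU_mono (le_min hp h.T_pos.le) (min_le_min_right _ hpp) (min_le_right _ _)

theorem lip (h : Par r m₁ m₂ b d) {p p' : ℝ} (hp : 0 ≤ p) (hpp : p ≤ p') :
    prof r m₁ m₂ b d p' ≤ prof r m₁ m₂ b d p + (p' - p) := by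
  have h0 : 0 ≤ min p (d / b) := le_min hp h.T_pos.le
  have t := h.tangent h0 (min_le_right _ _) (le_min (hp.trans hpp) h.T_pos.le) (min_le_right _ _)
  have u1 := h.UD_le_one h0 (min_le_right _ _)
  have hm : min p (d / b) ≤ min p' (d / b) := min_le_min_right _ hpp
  have hm2 : min p' (d / b) - min p (d / b) ≤ p' - p := by
    rcases le_total p (d / b) with h1 | h1
    · rw [min_eq_left h1]
      linarith [min_le_left p' (d / b)]
    · rw [min_eq_right h1]
      linarith [min_le_right p' (d / b)]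
  unfold prof
  nlinarith

theorem zero (h : Par r m₁ m₂ b d) : prof r m₁ m₂ b d 0 = 0 := by
  unfold prof UU
  rw [min_eq_left h.T_pos.le]
  simp

theorem supergrad (h : Par r m₁ m₂ b d) {x : ℝ} (hx : 0 ≤ x) :
    ∃ g, ∀ y, 0 ≤ y → prof r m₁ m₂ b d y ≤ prof r m₁ m₂ b d x + g * (y - x) := by
  rcases le_total x (d / b) with h1 | h1
  · refine ⟨UD r m₁ m₂ b d x, fun y hy => ?_⟩
    have t := h.tangent hx h1 (le_min hy h.T_pos.le) (min_le_right _ _)
    have u := h.UD_nonneg hx h1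
    have := min_le_left y (d / b)
    unfold prof
    rw [min_eq_left h1]
    nlinarith
  · refine ⟨0, fun y hy => ?_⟩
    unfold prof
    rw [min_eq_right h1, zero_mul, add_zero]
    exact h.UU_mono (le_min hy h.T_pos.le) (min_le_right _ _) le_rfl

theorem concaveOn (h : Par r m₁ m₂ b d) : ConcaveOn ℝ (Ici 0) (prof r m₁ m₂ b d) := by
  refine ⟨convex_Ici 0, fun x hx y hy a c ha hc hac => ?_⟩
  have hz : 0 ≤ a * x + c * y := add_nonneg (mul_nonneg ha hx) (mul_nonneg hc hy)
  obtain ⟨g, hg⟩ := h.supergrad hz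
  have s1 := mul_le_mul_of_nonneg_left (hg x hx) ha
  have s2 := mul_le_mul_of_nonneg_left (hg y hy) hc
  simp only [smul_eq_mul]
  have e : a * (prof r m₁ m₂ b d (a * x + c * y) + g * (x - (a * x + c * y)))
      + c * (prof r m₁ m₂ b d (a * x + c * y) + g * (y - (a * x + c * y)))
      = prof r m₁ m₂ b d (a * x + c * y) := by
    have hc' : c = 1 - a := by linarith
    subst hc'
    ring
  linarith

end Par

/-- the two-variable AM-GM inequality -/
theorem prof_add_le {r m₁ m₂ b d e k : ℝ} (h : Par r m₁ m₂ b d) (h' : Par (1 - r) m₁ m₂ e k)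
    (hdet : m₁ * m₂ = b * e + b * k + d * e) {p q : ℝ} (hp : 0 ≤ p) (hq : 0 ≤ q) :
    prof r m₁ m₂ b d p + prof (1 - r) m₁ m₂ e k q ≤ Real.log (1 + p + q) := by
  have hp0 : 0 ≤ min p (d / b) := le_min hp h.T_pos.le
  have hq0 : 0 ≤ min q (k / e) := le_min hq h'.T_pos.le
  have a1 := lin_pos h.m1 h.b0 h.d0 hp0 (min_le_right _ _)
  have a2 := lin_pos h.m2 h.b0 h.d0 hp0 (min_le_right _ _)
  have b1 := lin_pos h'.m1 h'.b0 h'.d0 hq0 (min_le_right _ _)
  have b2 := lin_pos h'.m2 h'.b0 h'.d0 hq0 (min_le_right _ _)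
  have hm := h.mean_slope
  have hm' := h'.mean_slope
  have hx : r * ((m₁ - b) / d * ((m₂ - e) / k)) + (1 - r) * ((m₂ - b) / d * ((m₁ - e) / k)) = 0 := by
    have hd := h.d0
    have hk := h'.d0
    have e1 := h.mean
    have e2 := h'.mean
    have : r * ((m₁ - b) * (m₂ - e)) + (1 - r) * ((m₂ - b) * (m₁ - e)) = 0 := by
      linear_combination hdet - e * e1 - b * e2
    field_simp
    linear_combination this
  have hle : 1 + min p (d / b) + min q (k / e) ≤ 1 + p + q := by
    linarith [min_le_left p (d / b), min_le_left q (k / e)]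
  unfold prof UU
  generalize min p (d / b) = x at *
  generalize min q (k / e) = y at *
  generalize (m₁ - b) / d = α₁ at *
  generalize (m₂ - b) / d = α₂ at *
  generalize (m₁ - e) / k = β₁ at *
  generalize (m₂ - e) / k = β₂ at *
  have hc := strictConcaveOn_log_Ioi.concaveOn.2 (mem_Ioi.mpr (mul_pos a1 b2))
    (mem_Ioi.mpr (mul_pos a2 b1)) h.r0 (sub_nonneg.mpr h.r1) (by ring)
  simp only [smul_eq_mul] at hc
  have e : r * ((1 + α₁ * x) * (1 + β₂ * y)) + (1 - r) * ((1 + α₂ * x) * (1 + β₁ * y))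
      = 1 + x + y := by
    linear_combination x * hm + y * hm' + x * y * hx
  rw [e, Real.log_mul a1.ne' b2.ne', Real.log_mul a2.ne' b1.ne'] at hc
  have hl := Real.log_le_log (by linarith) hle
  linarith

/-- staircase approximation -/
noncomputable def stair (u : ℝ → ℝ) (h : ℝ) (M : ℕ) (p : ℝ) : ℝ :=
  ∑ k ∈ Finset.range M, (u ((k + 1) * h) - u (k * h)) * (if (k + 1) * h < p then 1 else 0)

theorem stair_bounds {u : ℝ → ℝ} (mono : ∀ p p', 0 ≤ p → p ≤ p' → u p ≤ u p')
    (lip : ∀ p p', 0 ≤ p → p ≤ p' → u p' ≤ u p + (p' - p)) (zero : u 0 = 0) {h : ℝ} (hh : 0 ≤ h)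
    {p : ℝ} (hp : 0 ≤ p) (M : ℕ) :
    stair u h M p ≤ u (min p (M * h)) ∧ (M * h < p → stair u h M p = u (M * h)) ∧
      u (min p (M * h)) - h ≤ stair u h M p := by
  induction M with
  | zero =>
    simp only [stair, Finset.range_zero, Finset.sum_empty, Nat.cast_zero, zero_mul,
      min_eq_right hp, zero]
    exact ⟨le_rfl, fun _ => trivial, by linarith⟩
  | succ M ih =>
    obtain ⟨i1, i2, i3⟩ := ih
    have hM : (0 : ℝ) ≤ M * h := mul_nonneg (Nat.cast_nonneg M) hh
    have hstep : (M : ℝ) * h ≤ (M + 1) * h := by linarith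
    have e : stair u h (M + 1) p = stair u h M p
        + (u ((M + 1) * h) - u (M * h)) * (if (M + 1) * h < p then 1 else 0) := by
      unfold stair
      rw [Finset.sum_range_succ]
    rw [e]
    push_cast
    by_cases hc : ((M : ℝ) + 1) * h < p
    · rw [if_pos hc, i2 (hstep.trans_lt hc), min_eq_right hc.le]
      refine ⟨by linarith, fun _ => by ring, by linarith⟩
    · rw [if_neg hc, mul_zero, add_zero]
      rw [not_lt] at hc
      refine ⟨i1.trans (mono _ _ (le_min hp hM) (min_le_min_left _ hstep)),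
        fun h' => absurd h' (not_lt.mpr hc), ?_⟩
      rw [min_eq_left hc]
      rcases lt_or_ge (M * h) p with h1 | h1
      · rw [i2 h1]
        have := lip _ _ hM h1.le
        linarith
      · rwa [min_eq_left h1] at i3

theorem ind_integrable (l a b : ℝ) :
    IntervalIntegrable (fun s : ℝ => if s < l then (1 : ℝ) else 0) volume a b := by
  apply Antitone.intervalIntegrable
  intro x y hxy
  by_cases hy : y < l
  · simp [hy, hxy.trans_lt hy]
  · simp only [hy, if_false]
    split_ifs <;> norm_num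

theorem ind_integral (l : ℝ) {S : ℝ} (hS : 0 ≤ S) :
    ∫ s in (0 : ℝ)..S, (if s < l then (1 : ℝ) else 0) = max 0 (min l S) := by
  have c0 : 0 ≤ max 0 (min l S) := le_max_left _ _
  have c1 : max 0 (min l S) ≤ S := max_le hS (min_le_right _ _)
  rw [← intervalIntegral.integral_add_adjacent_intervals (ind_integrable l 0 (max 0 (min l S)))
    (ind_integrable l _ S)]
  have e1 : ∫ s in (0 : ℝ)..(max 0 (min l S)), (if s < l then (1 : ℝ) else 0)
      = ∫ s in (0 : ℝ)..(max 0 (min l S)), (1 : ℝ) := by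
    refine intervalIntegral.integral_congr_Ioo_of_le c0 fun s hs => ?_
    have : s < l := by
      rcases lt_max_iff.mp hs.2 with h | h
      · exact absurd h (not_lt.mpr hs.1.le)
      · exact h.trans_le (min_le_left _ _)
    simp [this]
  have e2 : ∫ s in (max 0 (min l S))..S, (if s < l then (1 : ℝ) else 0)
      = ∫ s in (max 0 (min l S))..S, (0 : ℝ) := by
    refine intervalIntegral.integral_congr_Ioo_of_le c1 fun s hs => ?_
    have : ¬ s < l := fun h => absurd ((lt_min h hs.2).trans_le (le_max_right 0 _))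
      (not_lt.mpr hs.1.le)
    simp [this]
  rw [e1, e2]
  simp

theorem log_shift_integrable (c a b : ℝ) :
    IntervalIntegrable (fun s : ℝ => Real.log (s + c)) volume a b := by
  have := (intervalIntegral.intervalIntegrable_log' (a := a + c) (b := b + c)).comp_add_right c
  simpa using this

theorem log_shift_integral (c a b : ℝ) :
    ∫ s in a..b, Real.log (s + c)
      = (b + c) * Real.log (b + c) - (a + c) * Real.log (a + c) - b + a := by
  rw [intervalIntegral.integral_comp_add_right Real.log c, integral_log]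
  ring

theorem mul_log_tangent {S y : ℝ} (hS : 0 < S) (hy : 0 < y) :
    S * Real.log S + (y - S) * (Real.log S + 1) ≤ y * Real.log y := by
  have h := log_tangent hy hS
  have h2 := mul_le_mul_of_nonneg_left h hy.le
  have e : y * (Real.log y + (S - y) / y) = y * Real.log y + (S - y) := by field_simp
  nlinarith

theorem mul_log_upper {S x : ℝ} (hS : 0 < S) (hx : 0 ≤ x) :
    (S + x) * Real.log (S + x) ≤ S * Real.log S + x * (Real.log S + 1) + x ^ 2 / S := by
  have h := log_tangent hS (show 0 < S + x by linarith)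
  have h2 := mul_le_mul_of_nonneg_left h (show 0 ≤ S + x by linarith)
  have e : (S + x) * (Real.log S + (S + x - S) / S)
      = S * Real.log S + x * (Real.log S + 1) + x ^ 2 / S := by field_simp; ring
  linarith

end Vale.Agent.P358
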