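import Vale.Agent.P358.Defs

namespace Vale.Agent.P358

open Matrix
open scoped ComplexOrder

set_option linter.unusedSectionVars false

variable {n m : Type} [Fintype n] [DecidableEq n] [Fintype m] [DecidableEq m]

/-- trace of `g(A)` through the roots of the characteristic polynomial -/
noncomputable def trf (g : ℝ → ℝ) (A : Matrix n n ℂ) : ℝ :=
  (A.charpoly.roots.map (fun z => g z.re)).sum

/-- entropy in nats (unnormalized) -/
noncomputable def ent (A : Matrix n n ℂ) : ℝ := trf Real.negMulLog A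

/-- unitary diagonalization -/
structure Dg (A U : Matrix n n ℂ) (d : n → ℝ) : Prop where
  l : Uᴴ * U = 1
  r : U * Uᴴ = 1
  eq : A = U * diagonal (fun i => (d i : ℂ)) * Uᴴ

theorem dg_eigen {A : Matrix n n ℂ} (hA : A.IsHermitian) :
    Dg A (hA.eigenvectorUnitary : Matrix n n ℂ) hA.eigenvalues := by
  refine ⟨?_, ?_, ?_⟩
  · exact Unitary.coe_star_mul_self hA.eigenvectorUnitary
  · exact Unitary.coe_mul_star_self hA.eigenvectorUnitary
  · have h := hA.spectral_theorem
    rw [Unitary.conjStarAlgAut_apply] at h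
    exact h

theorem exists_dg {A : Matrix n n ℂ} (hA : A.IsHermitian) : ∃ U d, Dg A U d :=
  ⟨_, _, dg_eigen hA⟩

theorem dg_diagonal (d : n → ℝ) : Dg (diagonal (fun i => (d i : ℂ))) 1 d :=
  ⟨by simp, by simp, by simp⟩

namespace Dg

variable {A U : Matrix n n ℂ} {d : n → ℝ}

theorem charpoly (h : Dg A U d) :
    A.charpoly = ∏ i, (Polynomial.X - Polynomial.C (d i : ℂ)) := by
  rw [h.eq, charpoly_mul_comm, ← Matrix.mul_assoc, h.l, Matrix.one_mul, charpoly_diagonal]

theorem trf_eq (h : Dg A U d) (g : ℝ → ℝ) : trf g A = ∑ i, g (d i) := by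
  unfold trf
  rw [h.charpoly, Polynomial.roots_prod]
  · simp
  · simp [Finset.prod_ne_zero_iff, Polynomial.X_sub_C_ne_zero]

theorem ent_eq (h : Dg A U d) : ent A = ∑ i, Real.negMulLog (d i) := h.trf_eq _

theorem conj (h : Dg A U d) : Uᴴ * A * U = diagonal (fun i => (d i : ℂ)) := by
  rw [h.eq]
  calc Uᴴ * (U * diagonal (fun i => (d i : ℂ)) * Uᴴ) * U
      = (Uᴴ * U) * diagonal (fun i => (d i : ℂ)) * (Uᴴ * U) := by
        simp only [Matrix.mul_assoc]
    _ = _ := by rw [h.l]; simp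

theorem re_conj (h : Dg A U d) (i : n) : ((Uᴴ * A * U) i i).re = d i := by
  rw [h.conj]; simp

theorem nonneg (h : Dg A U d) (hA : A.PosSemidef) (i : n) : 0 ≤ d i := by
  rw [← h.re_conj i]
  exact (Complex.nonneg_iff.mp (hA.conjTranspose_mul_mul_same U).diag_nonneg).1

theorem isHermitian (h : Dg A U d) : A.IsHermitian := by
  rw [h.eq]
  have : (diagonal (fun i => (d i : ℂ))).IsHermitian := by
    rw [isHermitian_diagonal_iff]
    intro i
    exact Complex.conj_ofReal _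
  exact isHermitian_mul_mul_conjTranspose U this

theorem posSemidef (h : Dg A U d) (hd : ∀ i, 0 ≤ d i) : A.PosSemidef := by
  rw [h.eq]
  refine PosSemidef.mul_mul_conjTranspose_same (PosSemidef.diagonal ?_) U
  intro i
  exact Complex.zero_le_real.mpr (hd i)

theorem trace_eq (h : Dg A U d) : A.trace = ((∑ i, d i : ℝ) : ℂ) := by
  rw [h.eq, trace_mul_comm, ← Matrix.mul_assoc, h.l, Matrix.one_mul, trace_diagonal]
  simp

theorem trace_re (h : Dg A U d) : A.trace.re = ∑ i, d i := by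
  rw [h.trace_eq, Complex.ofReal_re]

theorem shift (h : Dg A U d) (s : ℝ) : Dg ((s : ℂ) • (1 : Matrix n n ℂ) + A) U (fun i => s + d i) := by
  refine ⟨h.l, h.r, ?_⟩
  have e : diagonal (fun i => ((s + d i : ℝ) : ℂ))
      = (s : ℂ) • (1 : Matrix n n ℂ) + diagonal (fun i => (d i : ℂ)) := by
    ext i j
    by_cases hij : i = j
    · subst hij; simp
    · simp [hij]
  rw [e, Matrix.mul_add, Matrix.add_mul, ← h.eq, Matrix.mul_smul, Matrix.mul_one,
    Matrix.smul_mul, h.r]

theorem smul (h : Dg A U d) (c : ℝ) : Dg ((c : ℂ) • A) U (fun i => c * d i) := by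
  refine ⟨h.l, h.r, ?_⟩
  have e : diagonal (fun i => ((c * d i : ℝ) : ℂ))
      = (c : ℂ) • diagonal (fun i => (d i : ℂ)) := by
    ext i j
    by_cases hij : i = j
    · subst hij; simp
    · simp [hij]
  rw [e, Matrix.mul_smul, Matrix.smul_mul, ← h.eq]

theorem det_eq (h : Dg A U d) : A.det = ((∏ i, d i : ℝ) : ℂ) := by
  rw [h.eq, det_mul_comm, ← Matrix.mul_assoc, h.l, Matrix.one_mul, det_diagonal]
  simp

theorem diag_conj (h : Dg A U d) (V : Matrix n m ℂ) (i : m) :
    ((Vᴴ * A * V) i i).re = ∑ j, Complex.normSq ((Uᴴ * V) j i) * d j := by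
  have e : Vᴴ * A * V = (Uᴴ * V)ᴴ * diagonal (fun i => (d i : ℂ)) * (Uᴴ * V) := by
    rw [h.eq, conjTranspose_mul, conjTranspose_conjTranspose]
    simp only [Matrix.mul_assoc]
  rw [e, Matrix.mul_apply, Complex.re_sum]
  refine Finset.sum_congr rfl fun j _ => ?_
  rw [Matrix.mul_diagonal, conjTranspose_apply]
  have : star ((Uᴴ * V) j i) * (d j : ℂ) * (Uᴴ * V) j i
      = ((Complex.normSq ((Uᴴ * V) j i) * d j : ℝ) : ℂ) := by
    rw [Complex.ofReal_mul, Complex.normSq_eq_conj_mul_self]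
    simp only [RCLike.star_def]
    ring
  rw [this, Complex.ofReal_re]

end Dg

theorem col_normSq {W : Matrix n m ℂ} (hW : Wᴴ * W = 1) (i : m) :
    ∑ j, Complex.normSq (W j i) = 1 := by
  have h := congrFun (congrFun hW i) i
  rw [Matrix.mul_apply, one_apply_eq] at h
  have h2 := congrArg Complex.re h
  rw [Complex.re_sum, Complex.one_re] at h2
  rw [← h2]
  refine Finset.sum_congr rfl fun j _ => ?_
  rw [conjTranspose_apply]
  have : star (W j i) * W j i = ((Complex.normSq (W j i) : ℝ) : ℂ) := by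
    rw [Complex.normSq_eq_conj_mul_self]; rfl
  rw [this, Complex.ofReal_re]

theorem row_normSq {W : Matrix n m ℂ} (hW : W * Wᴴ = 1) (j : n) :
    ∑ i, Complex.normSq (W j i) = 1 := by
  have h := col_normSq (W := Wᴴ) (by rw [conjTranspose_conjTranspose]; exact hW) j
  rw [← h]
  refine Finset.sum_congr rfl fun i _ => ?_
  rw [conjTranspose_apply]
  simp

/-- Jensen in a rotated basis -/
theorem Dg.jensen {A U : Matrix n n ℂ} {d : n → ℝ} (h : Dg A U d) {s : Set ℝ} {g : ℝ → ℝ}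
    (hg : ConcaveOn ℝ s g) (hd : ∀ j, d j ∈ s) {V : Matrix n n ℂ} (hl : Vᴴ * V = 1)
    (hr : V * Vᴴ = 1) : ∑ j, g (d j) ≤ ∑ i, g ((Vᴴ * A * V) i i).re := by
  have hWl : (Uᴴ * V)ᴴ * (Uᴴ * V) = 1 := by
    rw [conjTranspose_mul, conjTranspose_conjTranspose]
    calc Vᴴ * U * (Uᴴ * V) = Vᴴ * (U * Uᴴ) * V := by simp only [Matrix.mul_assoc]
      _ = 1 := by rw [h.r, Matrix.mul_one, hl]
  have hWr : (Uᴴ * V) * (Uᴴ * V)ᴴ = 1 := by
    rw [conjTranspose_mul, conjTranspose_conjTranspose]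
    calc Uᴴ * V * (Vᴴ * U) = Uᴴ * (V * Vᴴ) * U := by simp only [Matrix.mul_assoc]
      _ = 1 := by rw [hr, Matrix.mul_one, h.l]
  calc ∑ j, g (d j) = ∑ j, ∑ i, Complex.normSq ((Uᴴ * V) j i) * g (d j) := by
        refine Finset.sum_congr rfl fun j _ => ?_
        rw [← Finset.sum_mul, row_normSq hWr, one_mul]
    _ = ∑ i, ∑ j, Complex.normSq ((Uᴴ * V) j i) * g (d j) := Finset.sum_comm
    _ ≤ _ := by
        refine Finset.sum_le_sum fun i _ => ?_
        rw [h.diag_conj V i]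
        have := hg.le_map_sum (t := Finset.univ) (w := fun j => Complex.normSq ((Uᴴ * V) j i))
          (p := d) (fun j _ => Complex.normSq_nonneg _) (col_normSq hWl i) (fun j _ => hd j)
        simpa only [smul_eq_mul] using this

theorem trf_le_diag {A : Matrix n n ℂ} (hA : A.PosSemidef) {g : ℝ → ℝ}
    (hg : ConcaveOn ℝ (Set.Ici 0) g) {V : Matrix n n ℂ} (hl : Vᴴ * V = 1)
    (hr : V * Vᴴ = 1) : trf g A ≤ ∑ i, g ((Vᴴ * A * V) i i).re := by
  obtain ⟨U, d, h⟩ := exists_dg hA.isHermitian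
  rw [h.trf_eq]
  exact h.jensen hg (fun j => h.nonneg hA j) hl hr

theorem ent_le_diag {A : Matrix n n ℂ} (hA : A.PosSemidef) {V : Matrix n n ℂ} (hl : Vᴴ * V = 1)
    (hr : V * Vᴴ = 1) : ent A ≤ ∑ i, Real.negMulLog ((Vᴴ * A * V) i i).re :=
  trf_le_diag hA Real.concaveOn_negMulLog hl hr

theorem ent_le_diag_one {A : Matrix n n ℂ} (hA : A.PosSemidef) :
    ent A ≤ ∑ i, Real.negMulLog (A i i).re := by
  simpa using ent_le_diag hA (V := 1) (by simp) (by simp)

theorem trf_submatrix (g : ℝ → ℝ) (A : Matrix n n ℂ) (e : m ≃ n) :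
    trf g (A.submatrix e e) = trf g A := by
  unfold trf
  have : A.submatrix e e = reindex e.symm e.symm A := by simp
  rw [this, charpoly_reindex]

theorem ent_submatrix (A : Matrix n n ℂ) (e : m ≃ n) : ent (A.submatrix e e) = ent A :=
  trf_submatrix _ A e

theorem sum_re_conj (A : Matrix n n ℂ) {V : Matrix n n ℂ} (hr : V * Vᴴ = 1) :
    ∑ i, ((Vᴴ * A * V) i i).re = A.trace.re := by
  have : (Vᴴ * A * V).trace = A.trace := by
    rw [trace_mul_comm, ← Matrix.mul_assoc, hr, Matrix.one_mul]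
  rw [← this, trace, Complex.re_sum]
  rfl

theorem re_conj_nonneg {A : Matrix n n ℂ} (hA : A.PosSemidef) (V : Matrix n m ℂ) (i : m) :
    0 ≤ ((Vᴴ * A * V) i i).re :=
  (Complex.nonneg_iff.mp (hA.conjTranspose_mul_mul_same V).diag_nonneg).1

theorem vnEntropy_eq {A : Matrix n n ℂ} (hA : A.IsHermitian) :
    vnEntropy A = ent A / Real.log 2 := by
  rw [vnEntropy, dif_pos hA, (dg_eigen hA).ent_eq, Finset.sum_div, ← Finset.sum_neg_distrib]
  refine Finset.sum_congr rfl fun i _ => ?_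
  rw [Real.negMulLog, Real.logb]
  ring

theorem ent_smul {A : Matrix n n ℂ} (hA : A.IsHermitian) (c : ℝ) :
    ent ((c : ℂ) • A) = c * ent A + Real.negMulLog c * A.trace.re := by
  obtain ⟨U, d, h⟩ := exists_dg hA
  rw [(h.smul c).ent_eq, h.ent_eq, h.trace_re, Finset.mul_sum, Finset.mul_sum,
    ← Finset.sum_add_distrib]
  refine Finset.sum_congr rfl fun i _ => ?_
  rw [Real.negMulLog_mul]
  ring

end Vale.Agent.P358
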