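import Vale.Agent.P358.Scal

/-
PLAN.  Write T x y u v = gad γ ν (single u v 1) x y.
* Kraus form: T x y u v = ∑ k : Fin 4, K k x u * star (K k y v) with real
  K0 = √(1-ν) diag(1, √(1-γ)), K1 = √(γ(1-ν)) |0><1|, K2 = √ν diag(√(1-γ), 1), K3 = √(γν) |1><0|
  (check the 16 cases with fin_cases); then ∏ i, ∑ k = ∑ over k : Fin n → Fin 4 of ∏ i
  (Finset.prod_univ_sum), giving tp_kraus with (KK k) x u = ∏ i, K (k i) (x i) (u i).
* tp_block_psd: fromBlocks of the images = ∑ k, fromBlocks K 0 0 K * ρ * (fromBlocks K 0 0 K)ᴴ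
  (fromBlocks_multiply, posSemidef_sum).
* diagonal: T x x u v = if u = v then W x u else 0 with the stochastic matrix W, so
  (tensorPow .. M) x x = ∑ u, (∏ i, W (x i) (u i)) * M u u; marginals by product-sum swap.
* tp_succ: Fin.prod_univ_succ, sums over Fin (n+1) → Fin 2 split with Fin.consEquiv.
* ent_le_sum_bin: ent_le_diag_one, then Gibbs with r x = ∏ i, r i (x i) the product of the marginals:
  negMulLog (p x) ≤ - p x * ∑ i, log (r i (x i)) + r x - p x (if p x > 0 all marginals r i (x i) ≥ p x > 0).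
-/

namespace Vale.Agent.P358

open Matrix
open scoped ComplexOrder

/-- split off the first qubit -/
def splitEquiv (n : ℕ) : (Fin n → Fin 2) ⊕ (Fin n → Fin 2) ≃ (Fin (n + 1) → Fin 2) where
  toFun := Sum.elim (fun x => Fin.cons 0 x) (fun x => Fin.cons 1 x)
  invFun := fun y => if y 0 = 0 then Sum.inl (Fin.tail y) else Sum.inr (Fin.tail y)
  left_inv := by
    rintro (x | x) <;> simp
  right_inv := by
    intro y
    by_cases h : y 0 = 0
    · simp only [h, if_true, Sum.elim_inl]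
      rw [← h, Fin.cons_self_tail]
    · have h1 : y 0 = 1 := by omega
      simp only [h, if_false, Sum.elim_inr]
      rw [← h1, Fin.cons_self_tail]

/-- the block of `M` with first qubit indices `a`, `b` -/
def blk {n : ℕ} (M : Matrix (Fin (n + 1) → Fin 2) (Fin (n + 1) → Fin 2) ℂ) (a b : Fin 2) :
    Matrix (Fin n → Fin 2) (Fin n → Fin 2) ℂ :=
  Matrix.of fun x y => M (Fin.cons a x) (Fin.cons b y)

theorem submatrix_split {n : ℕ} (M : Matrix (Fin (n + 1) → Fin 2) (Fin (n + 1) → Fin 2) ℂ) :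
    M.submatrix (splitEquiv n) (splitEquiv n)
      = fromBlocks (blk M 0 0) (blk M 0 1) (blk M 1 0) (blk M 1 1) := by
  ext (x | x) (y | y) <;> rfl

theorem tp_smul (N : Matrix (Fin 2) (Fin 2) ℂ → Matrix (Fin 2) (Fin 2) ℂ) (n : ℕ) (c : ℂ)
    (M : Matrix (Fin n → Fin 2) (Fin n → Fin 2) ℂ) :
    tensorPow N n (c • M) = c • tensorPow N n M := by
  ext x y
  simp only [tensorPow, of_apply, Matrix.smul_apply, smul_eq_mul, Finset.mul_sum]
  exact Finset.sum_congr rfl fun u _ => Finset.sum_congr rfl fun v _ => by ring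

theorem tp_sum (N : Matrix (Fin 2) (Fin 2) ℂ → Matrix (Fin 2) (Fin 2) ℂ) (n : ℕ) {ι : Type}
    [Fintype ι] (M : ι → Matrix (Fin n → Fin 2) (Fin n → Fin 2) ℂ) :
    tensorPow N n (∑ a, M a) = ∑ a, tensorPow N n (M a) := by
  ext x y
  simp only [tensorPow, of_apply, Matrix.sum_apply, Finset.mul_sum]
  rw [Finset.sum_congr rfl fun u _ => Finset.sum_comm, Finset.sum_comm]

/-- the stochastic matrix of the channel on populations -/
def tpW (γ ν : ℝ) : Fin 2 → Fin 2 → ℝ := ![![1 - γ * ν, γ * (1 - ν)], ![γ * ν, 1 - γ + γ * ν]]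

/-- the matrix elements of the channel -/
noncomputable def tpT (γ ν : ℝ) (x y u v : Fin 2) : ℝ :=
  if u = v then (if x = y then tpW γ ν x u else 0) else if x = u ∧ y = v then √(1 - γ) else 0

theorem gad_single (γ ν : ℝ) (x y u v : Fin 2) :
    gad γ ν (Matrix.single u v 1) x y = (tpT γ ν x y u v : ℂ) := by
  fin_cases x <;> fin_cases y <;> fin_cases u <;> fin_cases v <;>
    simp [gad, tpT, tpW, Matrix.trace_fin_two, Matrix.single] <;> ring

/-- Kraus operators -/
noncomputable def tpK (γ ν : ℝ) : Fin 4 → Fin 2 → Fin 2 → ℝ :=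
  ![![![√(1 - ν), 0], ![0, √(1 - ν) * √(1 - γ)]], ![![0, √γ * √(1 - ν)], ![0, 0]],
    ![![√ν * √(1 - γ), 0], ![0, √ν]], ![![0, 0], ![√γ * √ν, 0]]]

theorem tpT_kraus {γ ν : ℝ} (hγ : γ ∈ Set.Icc (0 : ℝ) 1) (hν : ν ∈ Set.Icc (0 : ℝ) 1)
    (x y u v : Fin 2) : tpT γ ν x y u v = ∑ k, tpK γ ν k x u * tpK γ ν k y v := by
  have ha := Real.mul_self_sqrt hγ.1
  have hb := Real.mul_self_sqrt (sub_nonneg.2 hγ.2)
  have hc := Real.mul_self_sqrt hν.1
  have hd := Real.mul_self_sqrt (sub_nonneg.2 hν.2)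
  fin_cases x <;> fin_cases y <;> fin_cases u <;> fin_cases v <;>
    simp [tpT, tpW, tpK, Fin.sum_univ_four]
  · linear_combination (-1) * hd - (√(1 - γ) * √(1 - γ)) * hc - ν * hb
  · linear_combination (-(√(1 - ν) * √(1 - ν))) * ha - γ * hd
  · linear_combination (-√(1 - γ)) * hd - √(1 - γ) * hc
  · linear_combination (-√(1 - γ)) * hd - √(1 - γ) * hc
  · linear_combination (-(√ν * √ν)) * ha - γ * hc
  · linear_combination (-(√(1 - γ) * √(1 - γ))) * hd - (1 - ν) * hb - hc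

theorem tp_kraus {γ ν : ℝ} (hγ : γ ∈ Set.Icc (0 : ℝ) 1) (hν : ν ∈ Set.Icc (0 : ℝ) 1) (n : ℕ) :
    ∃ K : (Fin n → Fin 4) → Matrix (Fin n → Fin 2) (Fin n → Fin 2) ℂ,
      ∀ M, tensorPow (gad γ ν) n M = ∑ k, K k * M * (K k)ᴴ := by
  refine ⟨fun k => Matrix.of fun x u => ((∏ i, tpK γ ν (k i) (x i) (u i) : ℝ) : ℂ), fun M => ?_⟩
  ext x y
  simp only [tensorPow, of_apply, Matrix.sum_apply, Matrix.mul_apply, conjTranspose_apply,
    gad_single, tpT_kraus hγ hν, Finset.sum_mul]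
  rw [Finset.sum_comm]
  conv_rhs => rw [Finset.sum_comm]
  refine Finset.sum_congr rfl fun v _ => ?_
  conv_rhs => rw [Finset.sum_comm]
  refine Finset.sum_congr rfl fun u _ => ?_
  rw [← Complex.ofReal_prod, Finset.prod_univ_sum, Fintype.piFinset_univ, Complex.ofReal_sum,
    Finset.sum_mul]
  refine Finset.sum_congr rfl fun k _ => ?_
  rw [Finset.prod_mul_distrib, Complex.ofReal_mul, Complex.star_def, Complex.conj_ofReal]
  ring

theorem tp_psd {γ ν : ℝ} (hγ : γ ∈ Set.Icc (0 : ℝ) 1) (hν : ν ∈ Set.Icc (0 : ℝ) 1) {n : ℕ}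
    {M : Matrix (Fin n → Fin 2) (Fin n → Fin 2) ℂ} (hM : M.PosSemidef) :
    (tensorPow (gad γ ν) n M).PosSemidef := by
  obtain ⟨K, hK⟩ := tp_kraus hγ hν n
  rw [hK]
  exact posSemidef_sum _ fun k _ => hM.mul_mul_conjTranspose_same _

theorem tp_block_psd {γ ν : ℝ} (hγ : γ ∈ Set.Icc (0 : ℝ) 1) (hν : ν ∈ Set.Icc (0 : ℝ) 1) {n : ℕ}
    {A B C D : Matrix (Fin n → Fin 2) (Fin n → Fin 2) ℂ} (h : (fromBlocks A B C D).PosSemidef) :
    (fromBlocks (tensorPow (gad γ ν) n A) (tensorPow (gad γ ν) n B) (tensorPow (gad γ ν) n C)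
      (tensorPow (gad γ ν) n D)).PosSemidef := by
  obtain ⟨K, hK⟩ := tp_kraus hγ hν n
  have e : fromBlocks (tensorPow (gad γ ν) n A) (tensorPow (gad γ ν) n B)
      (tensorPow (gad γ ν) n C) (tensorPow (gad γ ν) n D) =
      ∑ k, fromBlocks (K k) 0 0 (K k) * fromBlocks A B C D * (fromBlocks (K k) 0 0 (K k))ᴴ := by
    simp only [hK, fromBlocks_conjTranspose, fromBlocks_multiply, conjTranspose_zero,
      Matrix.zero_mul, Matrix.mul_zero, add_zero, zero_add]
    ext (x | x) (y | y) <;> simp [Matrix.sum_apply]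
  rw [e]
  exact posSemidef_sum _ fun k _ => h.mul_mul_conjTranspose_same _

theorem tp_diag (γ ν : ℝ) {n : ℕ} (M : Matrix (Fin n → Fin 2) (Fin n → Fin 2) ℂ)
    (x : Fin n → Fin 2) :
    tensorPow (gad γ ν) n M x x = ∑ u, ((∏ i, tpW γ ν (x i) (u i) : ℝ) : ℂ) * M u u := by
  simp only [tensorPow, of_apply, gad_single]
  refine Finset.sum_congr rfl fun u _ => ?_
  rw [Finset.sum_eq_single u]
  · simp [tpT]
  · intro v _ hv
    obtain ⟨i, hi⟩ := Function.ne_iff.1 hv
    rw [Finset.prod_eq_zero (Finset.mem_univ i), zero_mul]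
    rw [tpT, if_neg (Ne.symm hi), if_neg (fun h => hi (h.2.symm.trans h.1)), Complex.ofReal_zero]
  · simp

theorem tpW_sum (γ ν : ℝ) (u : Fin 2) : ∑ b, tpW γ ν b u = 1 := by
  fin_cases u <;> simp [tpW, Fin.sum_univ_two]
  ring

theorem tp_trace (γ ν : ℝ) {n : ℕ} (M : Matrix (Fin n → Fin 2) (Fin n → Fin 2) ℂ) :
    (tensorPow (gad γ ν) n M).trace = M.trace := by
  simp only [trace, diag, tp_diag]
  rw [Finset.sum_comm]
  refine Finset.sum_congr rfl fun u _ => ?_
  have := Finset.prod_univ_sum (fun _ : Fin n => (Finset.univ : Finset (Fin 2)))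
    fun i b => tpW γ ν b (u i)
  rw [Fintype.piFinset_univ] at this
  rw [← Finset.sum_mul, ← Complex.ofReal_sum, ← this]
  simp only [tpW_sum, Finset.prod_const_one, Complex.ofReal_one, one_mul]

theorem tp_pop (γ ν : ℝ) {n : ℕ} (M : Matrix (Fin n → Fin 2) (Fin n → Fin 2) ℂ) (i : Fin n) :
    pop (tensorPow (gad γ ν) n M) i = (1 - γ) * pop M i + γ * ν * M.trace.re := by
  have h1 : ∀ u : Fin n → Fin 2,
      ∑ x : Fin n → Fin 2, (if x i = 1 then ∏ j, tpW γ ν (x j) (u j) else 0) = tpW γ ν 1 (u i) := by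
    intro u
    have := Finset.prod_univ_sum (fun _ : Fin n => (Finset.univ : Finset (Fin 2)))
      fun j b => if j = i ∧ b ≠ 1 then 0 else tpW γ ν b (u j)
    rw [Fintype.piFinset_univ, Finset.prod_eq_single i] at this
    · have e : ∑ b : Fin 2, (if i = i ∧ b ≠ 1 then 0 else tpW γ ν b (u i)) = tpW γ ν 1 (u i) := by
        simp [Fin.sum_univ_two]
      rw [← e, this]
      refine Finset.sum_congr rfl fun x _ => ?_
      split_ifs with h
      · refine Finset.prod_congr rfl fun j _ => ?_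
        rw [if_neg]
        rintro ⟨rfl, h'⟩
        exact h' h
      · symm
        exact Finset.prod_eq_zero (Finset.mem_univ i) (if_pos ⟨rfl, h⟩)
    · intro j _ hj
      simp only [hj, false_and, if_false, tpW_sum]
    · simp
  have h2 : pop (tensorPow (gad γ ν) n M) i = ∑ u, tpW γ ν 1 (u i) * (M u u).re := by
    simp only [pop, tp_diag, Complex.re_sum, Complex.re_ofReal_mul, ← h1, Finset.sum_mul]
    rw [Finset.sum_comm]
    refine Finset.sum_congr rfl fun x _ => ?_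
    split_ifs <;> simp
  rw [h2, pop, trace, Complex.re_sum, Finset.mul_sum, Finset.mul_sum, ← Finset.sum_add_distrib]
  refine Finset.sum_congr rfl fun u _ => ?_
  simp only [diag]
  generalize u i = b
  fin_cases b <;> simp [tpW]
  ring

theorem sum_cons {R : Type} [AddCommMonoid R] {n : ℕ} (f : (Fin (n + 1) → Fin 2) → R) :
    ∑ u, f u = ∑ c : Fin 2, ∑ u : Fin n → Fin 2, f (Fin.cons c u) := by
  rw [← (Fin.consEquiv fun _ : Fin (n + 1) => Fin 2).sum_comp f, Fintype.sum_prod_type]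
  rfl

theorem tp_cons (N : Matrix (Fin 2) (Fin 2) ℂ → Matrix (Fin 2) (Fin 2) ℂ) {n : ℕ}
    (M : Matrix (Fin (n + 1) → Fin 2) (Fin (n + 1) → Fin 2) ℂ) (a b : Fin 2)
    (x y : Fin n → Fin 2) :
    tensorPow N (n + 1) M (Fin.cons a x) (Fin.cons b y) =
      ∑ c, ∑ d, N (Matrix.single c d 1) a b * tensorPow N n (blk M c d) x y := by
  simp only [tensorPow, of_apply, blk, Finset.mul_sum]
  rw [sum_cons]
  refine Finset.sum_congr rfl fun c _ => ?_
  rw [Finset.sum_congr rfl fun u _ => sum_cons _, Finset.sum_comm]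
  refine Finset.sum_congr rfl fun d _ => Finset.sum_congr rfl fun u _ =>
    Finset.sum_congr rfl fun v _ => ?_
  simp only [Fin.prod_univ_succ, Fin.cons_zero, Fin.cons_succ, mul_assoc]

theorem tp_succ (γ ν : ℝ) {n : ℕ} (M : Matrix (Fin (n + 1) → Fin 2) (Fin (n + 1) → Fin 2) ℂ) :
    (tensorPow (gad γ ν) (n + 1) M).submatrix (splitEquiv n) (splitEquiv n)
      = fromBlocks
        (((1 - γ * ν : ℝ) : ℂ) • tensorPow (gad γ ν) n (blk M 0 0)
          + ((γ * (1 - ν) : ℝ) : ℂ) • tensorPow (gad γ ν) n (blk M 1 1))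
        (((√(1 - γ) : ℝ) : ℂ) • tensorPow (gad γ ν) n (blk M 0 1))
        (((√(1 - γ) : ℝ) : ℂ) • tensorPow (gad γ ν) n (blk M 1 0))
        (((γ * ν : ℝ) : ℂ) • tensorPow (gad γ ν) n (blk M 0 0)
          + ((1 - γ + γ * ν : ℝ) : ℂ) • tensorPow (gad γ ν) n (blk M 1 1)) := by
  rw [submatrix_split]
  congr 1 <;> ext x y <;> rw [blk, of_apply, tp_cons] <;>
    simp only [gad_single, Fin.sum_univ_two, Matrix.add_apply, Matrix.smul_apply, smul_eq_mul] <;>
    simp [tpT, tpW]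

theorem pop_zero {n : ℕ} (M : Matrix (Fin (n + 1) → Fin 2) (Fin (n + 1) → Fin 2) ℂ) :
    pop M 0 = (blk M 1 1).trace.re := by
  rw [pop, sum_cons, trace, Complex.re_sum]
  simp [Fin.sum_univ_two, blk]

theorem pop_succ {n : ℕ} (M : Matrix (Fin (n + 1) → Fin 2) (Fin (n + 1) → Fin 2) ℂ) (i : Fin n) :
    pop M i.succ = pop (blk M 0 0) i + pop (blk M 1 1) i := by
  rw [pop, sum_cons, Fin.sum_univ_two]
  simp only [pop, blk, Fin.cons_succ, of_apply]

theorem trace_blk {n : ℕ} (M : Matrix (Fin (n + 1) → Fin 2) (Fin (n + 1) → Fin 2) ℂ) :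
    M.trace = (blk M 0 0).trace + (blk M 1 1).trace := by
  rw [trace, sum_cons, Fin.sum_univ_two]
  simp only [trace, diag, blk, of_apply]

theorem diag_re_nonneg {n : ℕ} {M : Matrix (Fin n → Fin 2) (Fin n → Fin 2) ℂ} (hM : IsState M)
    (x : Fin n → Fin 2) : 0 ≤ (M x x).re :=
  (Complex.nonneg_iff.mp hM.1.diag_nonneg).1

theorem diag_re_sum {n : ℕ} {M : Matrix (Fin n → Fin 2) (Fin n → Fin 2) ℂ} (hM : IsState M) :
    ∑ x, (M x x).re = 1 := by
  have := congrArg Complex.re hM.2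
  rwa [trace, Complex.re_sum] at this

theorem pop_mem {n : ℕ} {M : Matrix (Fin n → Fin 2) (Fin n → Fin 2) ℂ} (hM : IsState M)
    (i : Fin n) : pop M i ∈ Set.Icc (0 : ℝ) 1 := by
  constructor
  · refine Finset.sum_nonneg fun x _ => ?_
    split_ifs
    · exact diag_re_nonneg hM x
    · exact le_rfl
  · rw [← diag_re_sum hM]
    refine Finset.sum_le_sum fun x _ => ?_
    split_ifs
    · exact le_rfl
    · exact diag_re_nonneg hM x

theorem pop_smul {n : ℕ} (c : ℝ) (M : Matrix (Fin n → Fin 2) (Fin n → Fin 2) ℂ) (i : Fin n) :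
    pop ((c : ℂ) • M) i = c * pop M i := by
  simp only [pop, Finset.mul_sum, Matrix.smul_apply, smul_eq_mul, Complex.re_ofReal_mul, mul_ite,
    mul_zero]

theorem pop_sum {n : ℕ} {ι : Type} [Fintype ι]
    (M : ι → Matrix (Fin n → Fin 2) (Fin n → Fin 2) ℂ) (i : Fin n) :
    pop (∑ a, M a) i = ∑ a, pop (M a) i := by
  simp only [pop, Matrix.sum_apply, Complex.re_sum]
  rw [Finset.sum_comm]
  refine Finset.sum_congr rfl fun x _ => ?_
  split_ifs <;> simp

/-- Gibbs inequality against the product of the marginals -/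
theorem gibbs_marg {n : ℕ} (p : (Fin n → Fin 2) → ℝ) (h0 : ∀ x, 0 ≤ p x) (h1 : ∑ x, p x = 1) :
    ∑ x, Real.negMulLog (p x) ≤
      ∑ i, ∑ b : Fin 2, Real.negMulLog (∑ x, if x i = b then p x else 0) := by
  obtain ⟨r, hr⟩ : ∃ r : Fin n → Fin 2 → ℝ, ∀ i b, r i b = ∑ x, if x i = b then p x else 0 :=
    ⟨_, fun _ _ => rfl⟩
  simp only [← hr]
  have hr0 : ∀ x i, p x ≤ r i (x i) := fun x i => by
    rw [hr]
    have := Finset.single_le_sum (f := fun y : Fin n → Fin 2 => if y i = x i then p y else 0)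
      (fun y _ => by split_ifs; exacts [h0 y, le_rfl]) (Finset.mem_univ x)
    simpa using this
  have hr1 : ∀ i, ∑ b, r i b = 1 := fun i => by
    simp only [hr]
    rw [Finset.sum_comm, ← h1]
    simp
  have hR : ∑ x : Fin n → Fin 2, ∏ i, r i (x i) = 1 := by
    have := Finset.prod_univ_sum (fun _ : Fin n => (Finset.univ : Finset (Fin 2))) r
    rw [Fintype.piFinset_univ] at this
    rw [← this]
    simp only [hr1, Finset.prod_const_one]
  have hx : ∀ x, Real.negMulLog (p x) ≤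
      -(∑ i, p x * Real.log (r i (x i))) + ∏ i, r i (x i) - p x := fun x => by
    rcases (h0 x).eq_or_lt with h | h
    · rw [← h]
      have := Finset.prod_nonneg fun i (_ : i ∈ Finset.univ) => (h0 x).trans (hr0 x i)
      simpa using this
    · have h2 : ∀ i, 0 < r i (x i) := fun i => h.trans_le (hr0 x i)
      have h3 : 0 < ∏ i, r i (x i) := Finset.prod_pos fun i _ => h2 i
      rw [← Finset.mul_sum, ← Real.log_prod fun i _ => (h2 i).ne', Real.negMulLog]
      have h4 := Real.log_le_sub_one_of_pos (div_pos h3 h)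
      rw [Real.log_div h3.ne' h.ne'] at h4
      have h5 := mul_le_mul_of_nonneg_left h4 h.le
      have h6 : p x * ((∏ i, r i (x i)) / p x - 1) = ∏ i, r i (x i) - p x := by field_simp
      linarith
  refine (Finset.sum_le_sum fun x _ => hx x).trans (le_of_eq ?_)
  rw [Finset.sum_sub_distrib, Finset.sum_add_distrib, hR, h1, add_sub_cancel_right,
    Finset.sum_neg_distrib, Finset.sum_comm, ← Finset.sum_neg_distrib]
  refine Finset.sum_congr rfl fun i _ => ?_
  simp only [Real.negMulLog, neg_mul, Finset.sum_neg_distrib]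
  congr 1
  have : ∀ b, r i b * Real.log (r i b) =
      ∑ x : Fin n → Fin 2, if x i = b then p x * Real.log (r i b) else 0 := fun b => by
    conv_lhs => rw [hr i b, Finset.sum_mul, ← hr i b]
    simp only [ite_mul, zero_mul]
  simp only [this]
  rw [Finset.sum_comm]
  simp

/-- subadditivity bound -/
theorem ent_le_sum_bin {n : ℕ} {M : Matrix (Fin n → Fin 2) (Fin n → Fin 2) ℂ} (hM : IsState M) :
    ent M ≤ ∑ i, Real.binEntropy (pop M i) := by
  refine (ent_le_diag_one hM.1).trans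
    ((gibbs_marg _ (diag_re_nonneg hM) (diag_re_sum hM)).trans (le_of_eq ?_))
  refine Finset.sum_congr rfl fun i _ => ?_
  rw [Real.binEntropy_eq_negMulLog_add_negMulLog_one_sub, Fin.sum_univ_two, add_comm]
  congr 2
  rw [← diag_re_sum hM, pop, ← Finset.sum_sub_distrib]
  refine Finset.sum_congr rfl fun x _ => ?_
  generalize x i = b
  fin_cases b <;> simp

end Vale.Agent.P358
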