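import Vale.Agent.P358.Key
import Vale.Agent.P358.Conv
import Vale.Agent.P358.Tensor

namespace Vale.Agent.P358

open Set Matrix Real
open scoped ComplexOrder

set_option linter.unusedSectionVars false

theorem exists_normalize {ι : Type} [Fintype ι] [DecidableEq ι] [Nonempty ι] {A : Matrix ι ι ℂ}
    (hA : A.PosSemidef) : ∃ B : Matrix ι ι ℂ, IsState B ∧ A = ((A.trace.re : ℝ) : ℂ) • B := by
  have ht := trace_re_nonneg hA
  obtain ⟨U, d, h⟩ := exists_dg hA.isHermitian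
  rcases ht.eq_or_lt with h0 | h0
  · have hc : (0 : ℝ) < Fintype.card ι := Nat.cast_pos.mpr Fintype.card_pos
    refine ⟨(((Fintype.card ι : ℝ)⁻¹ : ℝ) : ℂ) • (1 : Matrix ι ι ℂ), ⟨PosSemidef.one.smul
      (Complex.zero_le_real.mpr (inv_pos.mpr hc).le), ?_⟩, ?_⟩
    · rw [trace_smul, trace_one, smul_eq_mul]
      have : ((Fintype.card ι : ℕ) : ℂ) = ((Fintype.card ι : ℝ) : ℂ) := by simp
      rw [this, ← Complex.ofReal_mul, inv_mul_cancel₀ hc.ne', Complex.ofReal_one]
    · have hd : ∀ i, d i = 0 := by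
        intro i
        have hs : ∑ j, d j = 0 := by rw [← h.trace_re, ← h0]
        exact (Finset.sum_eq_zero_iff_of_nonneg fun j _ => h.nonneg hA j).mp hs i
          (Finset.mem_univ i)
      rw [← h0, h.eq]
      simp [hd]
  · refine ⟨(((A.trace.re)⁻¹ : ℝ) : ℂ) • A, ⟨hA.smul
      (Complex.zero_le_real.mpr (inv_pos.mpr h0).le), ?_⟩, ?_⟩
    · have : A.trace = ((A.trace.re : ℝ) : ℂ) := by rw [h.trace_re, h.trace_eq]
      rw [trace_smul, smul_eq_mul]
      conv_lhs => arg 2; rw [this]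
      rw [← Complex.ofReal_mul, inv_mul_cancel₀ h0.ne', Complex.ofReal_one]
    · rw [smul_smul, ← Complex.ofReal_mul, mul_inv_cancel₀ h0.ne', Complex.ofReal_one, one_smul]

theorem ent_nonneg {ι : Type} [Fintype ι] [DecidableEq ι] {A : Matrix ι ι ℂ} (hA : IsState A) :
    0 ≤ ent A := by
  obtain ⟨U, d, h⟩ := exists_dg hA.1.isHermitian
  rw [h.ent_eq]
  refine Finset.sum_nonneg fun i _ => negMulLog_nonneg (h.nonneg hA.1 i) ?_
  have hs : ∑ j, d j = 1 := by rw [← h.trace_re, hA.2, Complex.one_re]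
  rw [← hs]
  exact Finset.single_le_sum (fun j _ => h.nonneg hA.1 j) (Finset.mem_univ i)

theorem tp_state {γ ν : ℝ} (hγ : γ ∈ Icc (0 : ℝ) 1) (hν : ν ∈ Icc (0 : ℝ) 1) {n : ℕ}
    {M : Matrix (Fin n → Fin 2) (Fin n → Fin 2) ℂ} (hM : IsState M) :
    IsState (tensorPow (gad γ ν) n M) :=
  ⟨tp_psd hγ hν hM.1, by rw [tp_trace, hM.2]⟩

theorem ent_tp_ge {γ ν : ℝ} (hγ : γ ∈ Icc (0 : ℝ) 1) (hν : ν ∈ Icc (0 : ℝ) 1) (n : ℕ) :
    ∀ M : Matrix (Fin n → Fin 2) (Fin n → Fin 2) ℂ, IsState M →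
      ∑ i, fmin γ ν (pop M i) ≤ ent (tensorPow (gad γ ν) n M) := by
  induction n with
  | zero =>
    intro M hM
    rw [Finset.univ_eq_empty, Finset.sum_empty]
    exact ent_nonneg (tp_state hγ hν hM)
  | succ n ih =>
    intro M hM
    have hB : (fromBlocks (blk M 0 0) (blk M 0 1) (blk M 1 0) (blk M 1 1)).PosSemidef := by
      rw [← submatrix_split]
      exact hM.1.submatrix _
    have h0 : (blk M 0 0).PosSemidef := hB.submatrix Sum.inl
    have h1 : (blk M 1 1).PosSemidef := hB.submatrix Sum.inr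
    obtain ⟨X, hX, eX⟩ := exists_normalize h0
    obtain ⟨Z, hZ, eZ⟩ := exists_normalize h1
    have hq := pop_mem hM 0
    have ht : (blk M 0 0).trace.re = 1 - pop M 0 := by
      have := congrArg Complex.re (trace_blk M)
      rw [hM.2, Complex.one_re, Complex.add_re, ← pop_zero] at this
      linarith
    rw [ht] at eX
    rw [← pop_zero] at eZ
    have hpop : ∀ i : Fin n, pop M i.succ = (1 - pop M 0) * pop X i + pop M 0 * pop Z i := by
      intro i
      rw [pop_succ, ← pop_smul, ← pop_smul, ← eX, ← eZ]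
    rw [← ent_submatrix _ (splitEquiv n), tp_succ, Fin.sum_univ_succ]
    have hT := tp_block_psd hγ hν hB
    generalize pop M 0 = q at hq eX eZ hpop ⊢
    rw [eX, eZ, tp_smul, tp_smul] at hT ⊢
    refine le_trans ?_ (key hγ hν hq (tp_state hγ hν hX) (tp_state hγ hν hZ) hT)
    have i1 := mul_le_mul_of_nonneg_left (ih X hX) (sub_nonneg.mpr hq.2)
    have i2 := mul_le_mul_of_nonneg_left (ih Z hZ) hq.1
    have i3 : ∑ i : Fin n, fmin γ ν (pop M i.succ)
        ≤ (1 - q) * ∑ i, fmin γ ν (pop X i) + q * ∑ i, fmin γ ν (pop Z i) := by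
      rw [Finset.mul_sum, Finset.mul_sum, ← Finset.sum_add_distrib]
      refine Finset.sum_le_sum fun i _ => ?_
      rw [hpop]
      exact (fmin_convex hγ hν).2 (pop_mem hX i) (pop_mem hZ i) (sub_nonneg.mpr hq.2) hq.1
        (by ring)
    linarith

theorem upper {γ ν : ℝ} (hγ : γ ∈ Icc (0 : ℝ) 1) (hν : ν ∈ Icc (0 : ℝ) 1) {G : ℝ}
    (hG : ∀ q ∈ Icc (0 : ℝ) 1, gain γ ν q ≤ G) (n : ℕ) {x : ℝ}
    (hx : x ∈ holevoSet (tensorPow (gad γ ν) n)) : x ≤ n * G := by
  obtain ⟨k, p, ρ, hp, hp1, hρ, rfl⟩ := hx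
  have hbar : IsState (∑ a, (p a : ℂ) • ρ a) := by
    refine ⟨posSemidef_sum _ fun a _ => (hρ a).1.smul (Complex.zero_le_real.mpr (hp a)), ?_⟩
    rw [trace_sum]
    simp only [trace_smul, (hρ _).2, smul_eq_mul, mul_one]
    rw [← Complex.ofReal_sum, hp1, Complex.ofReal_one]
  have e1 : ∑ a, (p a : ℂ) • tensorPow (gad γ ν) n (ρ a)
      = tensorPow (gad γ ν) n (∑ a, (p a : ℂ) • ρ a) := by
    rw [tp_sum]
    simp only [tp_smul]
  have hl : 0 < log 2 := log_pos one_lt_two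
  have u1 := ent_le_sum_bin (tp_state hγ hν hbar)
  simp only [tp_pop, hbar.2, Complex.one_re, mul_one] at u1
  have u2 : ∑ i, fmin γ ν (pop (∑ a, (p a : ℂ) • ρ a) i)
      ≤ ∑ a, p a * ent (tensorPow (gad γ ν) n (ρ a)) := by
    calc _ ≤ ∑ i, ∑ a, p a * fmin γ ν (pop (ρ a) i) := by
          refine Finset.sum_le_sum fun i _ => ?_
          rw [pop_sum]
          simp only [pop_smul]
          have := (fmin_convex hγ hν).map_sum_le (t := Finset.univ) (w := p)
            (p := fun a => pop (ρ a) i) (fun a _ => hp a) hp1 (fun a _ => pop_mem (hρ a) i)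
          simpa only [smul_eq_mul] using this
      _ = ∑ a, p a * ∑ i, fmin γ ν (pop (ρ a) i) := by
          rw [Finset.sum_comm]
          simp only [Finset.mul_sum]
      _ ≤ _ := Finset.sum_le_sum fun a _ =>
          mul_le_mul_of_nonneg_left (ent_tp_ge hγ hν n _ (hρ a)) (hp a)
  have e2 : ∑ a, p a * vnEntropy (tensorPow (gad γ ν) n (ρ a))
      = (∑ a, p a * ent (tensorPow (gad γ ν) n (ρ a))) / log 2 := by
    rw [Finset.sum_div]
    refine Finset.sum_congr rfl fun a _ => ?_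
    rw [vnEntropy_eq (tp_psd hγ hν (hρ a).1).isHermitian, mul_div_assoc]
  rw [e1, e2, vnEntropy_eq (tp_psd hγ hν hbar.1).isHermitian, ← sub_div]
  calc _ ≤ (∑ i, (binEntropy ((1 - γ) * pop (∑ a, (p a : ℂ) • ρ a) i + γ * ν)
          - fmin γ ν (pop (∑ a, (p a : ℂ) • ρ a) i))) / log 2 := by
        refine div_le_div_of_nonneg_right ?_ hl.le
        rw [Finset.sum_sub_distrib]
        linarith
    _ = ∑ i, gain γ ν (pop (∑ a, (p a : ℂ) • ρ a) i) := by
        rw [Finset.sum_div]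
        exact Finset.sum_congr rfl fun i _ => (gain_eq _ _ _).symm
    _ ≤ ∑ _i : Fin n, G := Finset.sum_le_sum fun i _ => hG _ (pop_mem hbar i)
    _ = n * G := by simp

end Vale.Agent.P358
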